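import Mathlib

/-! Height estimates and square classes for the curve y^2 = x^3 - 2x. -/

namespace Vale.Agent.P345

lemma cop_of_field (x y : ℤ)
    (h : ∀ (p : ℕ) [Fact p.Prime], (x : ZMod p) = 0 → (y : ZMod p) = 0 → False) :
    IsCoprime x y := by
  rw [Int.isCoprime_iff_gcd_eq_one, Nat.eq_one_iff_not_exists_prime_dvd]
  intro p hp hd
  have := Fact.mk hp
  have hd' : (p : ℤ) ∣ (Int.gcd x y : ℤ) := Int.natCast_dvd_natCast.2 hd
  exact h p ((ZMod.intCast_zmod_eq_zero_iff_dvd _ _).2 (hd'.trans (Int.gcd_dvd_left _ _)))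
    ((ZMod.intCast_zmod_eq_zero_iff_dvd _ _).2 (hd'.trans (Int.gcd_dvd_right _ _)))

lemma prop_dvd (p1 p2 p3 q1 q2 q3 : ℤ)
    (h : ∀ (p : ℕ) [Fact p.Prime], (p1 : ZMod p) = 0 → (p2 : ZMod p) = 0 → (p3 : ZMod p) = 0 →
      False) (h1 : p1 * q3 = p3 * q1) (h2 : p2 * q3 = p3 * q2) : p3 ∣ q3 := by
  obtain ⟨u, w, huw⟩ : IsCoprime (Int.gcd p1 p2 : ℤ) p3 := by
    refine cop_of_field _ _ fun p _ a b => h p ?_ ?_ b
    · rw [ZMod.intCast_zmod_eq_zero_iff_dvd] at a ⊢
      exact a.trans (Int.gcd_dvd_left _ _)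
    · rw [ZMod.intCast_zmod_eq_zero_iff_dvd] at a ⊢
      exact a.trans (Int.gcd_dvd_right _ _)
  rw [Int.gcd_eq_gcd_ab] at huw
  exact ⟨u * (q1 * Int.gcdA p1 p2 + q2 * Int.gcdB p1 p2) + w * q3, by
    linear_combination (-q3) * huw + (u * Int.gcdA p1 p2) * h1 + (u * Int.gcdB p1 p2) * h2⟩

lemma cop_field {a e : ℤ} (h : IsCoprime a e) (p : ℕ) [Fact p.Prime] (ha : (a : ZMod p) = 0)
    (he : (e : ZMod p) = 0) : False := by
  obtain ⟨u, v, h⟩ := h
  have := congrArg (Int.cast : ℤ → ZMod p) h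
  push_cast at this
  rw [ha, he] at this
  simp at this

lemma rat_cop (x : ℚ) : IsCoprime x.num (x.den : ℤ) := by
  rw [Int.isCoprime_iff_gcd_eq_one]; exact x.reduced

lemma rat_num (x : ℚ) : (x.num : ℚ) = x * x.den := (Rat.mul_den_eq_num x).symm

lemma height_step {x x3 x4 : ℚ} (hx : 1 < x) (h2 : x ≠ 2) (h3 : 0 < x3) (h4 : 0 < x4)
    (hs : (x3 + x4) * (x - 2) ^ 2 = 4 * (x + 2) * (x - 1))
    (hp : x3 * x4 * (x - 2) ^ 2 = 4 * (x + 1) ^ 2) :
    x.num ^ 2 < x3.num * x4.num ∧ x3.num * x4.num ≤ 16 * x.num ^ 2 := by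
  have hm : (x3 + x4) * (x + 1) ^ 2 = (x + 2) * (x - 1) * (x3 * x4) := by
    have : (x - 2) ^ 2 ≠ 0 := pow_ne_zero _ (sub_ne_zero.2 h2)
    apply mul_right_cancel₀ this
    linear_combination (x + 1) ^ 2 * hs - (x + 2) * (x - 1) * hp
  have c := rat_cop x
  have c3 := rat_cop x3
  have c4 := rat_cop x4
  have n := rat_num x
  have n3 := rat_num x3
  have n4 := rat_num x4
  have p3 : 0 < x3.num := Rat.num_pos.2 h3
  have p4 : 0 < x4.num := Rat.num_pos.2 h4
  have pe : (0 : ℤ) < x.den := by exact_mod_cast x.den_pos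
  have hlt : (x.den : ℤ) < x.num := by
    have : ((x.den : ℤ) : ℚ) < x.num := by
      rw [n]; push_cast
      have : (0 : ℚ) < x.den := by exact_mod_cast x.den_pos
      nlinarith
    exact_mod_cast this
  have e1 : (x.num - 2 * x.den) ^ 2 * (x3.num * x4.num) =
      (x.num + x.den) ^ 2 * (4 * (x3.den * x4.den)) := by
    have : (((x.num - 2 * x.den) ^ 2 * (x3.num * x4.num) : ℤ) : ℚ) =
      (((x.num + x.den) ^ 2 * (4 * (x3.den * x4.den)) : ℤ) : ℚ) := by
      push_cast; rw [n, n3, n4]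
      linear_combination ((x.den : ℚ) ^ 2 * x3.den * x4.den) * hp
    exact_mod_cast this
  have e2 : (x.num + 2 * x.den) * (x.num - x.den) * (x3.num * x4.num) =
      (x.num + x.den) ^ 2 * (x3.num * x4.den + x4.num * x3.den) := by
    have : (((x.num + 2 * x.den) * (x.num - x.den) * (x3.num * x4.num) : ℤ) : ℚ) =
      (((x.num + x.den) ^ 2 * (x3.num * x4.den + x4.num * x3.den) : ℤ) : ℚ) := by
      push_cast; rw [n, n3, n4]
      linear_combination (-(x.den : ℚ) ^ 2 * x3.den * x4.den) * hm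
    exact_mod_cast this
  generalize x.num = a at *
  generalize (x.den : ℤ) = e at *
  generalize x3.num = A3 at *
  generalize (x3.den : ℤ) = E3 at *
  generalize x4.num = A4 at *
  generalize (x4.den : ℤ) = E4 at *
  constructor
  · have : (a + e) ^ 2 ∣ A3 * A4 := by
      refine prop_dvd _ _ _ _ _ _ ?_ e1 e2
      intro p _ k1 k2 k3
      push_cast at k1 k2 k3
      have k1 := pow_eq_zero_iff (two_ne_zero) |>.1 k1
      have k3 := pow_eq_zero_iff (two_ne_zero) |>.1 k3
      have he : (e : ZMod p) = 0 := by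
        rcases mul_eq_zero.1 k2 with k | k
        · linear_combination k - k3
        · linear_combination k - k1
      exact cop_field c p (by linear_combination k3 - he) he
    have := Int.le_of_dvd (by positivity) this
    nlinarith
  · have : A3 * A4 ∣ 4 * (a + e) ^ 2 := by
      refine prop_dvd (E3 * E4) (A3 * E4 + A4 * E3) _ ((a - 2 * e) ^ 2)
        (4 * ((a + 2 * e) * (a - e))) _ ?_ (by linear_combination -e1)
        (by linear_combination (-4) * e2)
      intro p _ k1 k2 k3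
      push_cast at k1 k2 k3
      have d3 := cop_field c3 p
      have d4 := cop_field c4 p
      rcases mul_eq_zero.1 k1 with k | k <;> rcases mul_eq_zero.1 k3 with k' | k'
      · exact d3 k' k
      · rw [k, k'] at k2
        simp only [zero_mul, add_zero, mul_eq_zero] at k2
        tauto
      · rw [k, k'] at k2
        simp only [zero_mul, zero_add, mul_eq_zero] at k2
        tauto
      · exact d4 k' k
    have hae : 0 < a + e := by omega
    have := Int.le_of_dvd (by positivity) this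
    nlinarith

lemma height_dbl {x y x' : ℚ} (hx' : 0 < x') (hy : y ^ 2 = x ^ 3 - 2 * x)
    (h : x' * (4 * y ^ 2) = (x ^ 2 + 2) ^ 2) : x.num ^ 4 ≤ 4 * x'.num := by
  have c := rat_cop x
  have n := rat_num x
  have n' := rat_num x'
  have p' : 0 < x'.num := Rat.num_pos.2 hx'
  have e1 : x'.num * (4 * x.num * x.den * (x.num ^ 2 - 2 * x.den ^ 2)) =
      (x.num ^ 2 + 2 * x.den ^ 2) ^ 2 * x'.den := by
    have : ((x'.num * (4 * x.num * x.den * (x.num ^ 2 - 2 * x.den ^ 2)) : ℤ) : ℚ) =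
      (((x.num ^ 2 + 2 * x.den ^ 2) ^ 2 * x'.den : ℤ) : ℚ) := by
      push_cast; rw [n, n']
      linear_combination ((x.den : ℚ) ^ 4 * x'.den) * h - (4 * (x.den : ℚ) ^ 4 * x'.den * x') * hy
    exact_mod_cast this
  generalize x.num = a at *
  generalize (x.den : ℤ) = e at *
  generalize x'.num = A at *
  generalize (x'.den : ℤ) = E at *
  rcases Int.even_or_odd' a with ⟨k, hk | hk⟩
  · subst hk
    have hc : IsCoprime (2 * k ^ 2 + e ^ 2) (4 * k * e * (2 * k ^ 2 - e ^ 2)) := by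
      refine cop_of_field _ _ fun p _ k1 k2 => ?_
      have d := cop_field c p
      push_cast at k1 k2 d
      have h2k : (2 : ZMod p) * k = 0 → False := fun h =>
        d h (pow_eq_zero_iff (two_ne_zero) |>.1 (by linear_combination k1 - k * h))
      have h4 : (4 : ZMod p) * k = 0 → False := fun h => by
        rcases mul_eq_zero.1 (show (2 : ZMod p) * (2 * k) = 0 by linear_combination h) with h | h
        · exact h2k (by rw [h, zero_mul])
        · exact h2k h
      rcases mul_eq_zero.1 k2 with k3 | k3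
      · rcases mul_eq_zero.1 k3 with k3 | k3
        · exact h4 k3
        · refine h2k (pow_eq_zero_iff (two_ne_zero) |>.1 ?_)
          linear_combination 2 * k1 - 2 * e * k3
      · refine h2k (pow_eq_zero_iff (two_ne_zero) |>.1 ?_)
        linear_combination k1 + k3
    have : (2 * k ^ 2 + e ^ 2) ^ 2 ∣ A := by
      refine (hc.pow_left (m := 2)).dvd_of_dvd_mul_right ⟨E, ?_⟩
      apply mul_left_cancel₀ (show (4 : ℤ) ≠ 0 by norm_num)
      linear_combination e1
    have := Int.le_of_dvd p' this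
    nlinarith [sq_nonneg e, sq_nonneg k, sq_nonneg (e * k), sq_nonneg (e ^ 2)]
  · have hc : IsCoprime (a ^ 2 + 2 * e ^ 2) (4 * a * e * (a ^ 2 - 2 * e ^ 2)) := by
      refine cop_of_field _ _ fun p _ k1 k2 => ?_
      have d := cop_field c p
      have hk' := congrArg (Int.cast : ℤ → ZMod p) hk
      push_cast at k1 k2 hk'
      have h2 : (2 : ZMod p) = 0 → False := fun h => by
        have : (a : ZMod p) = 0 :=
          pow_eq_zero_iff (two_ne_zero) |>.1 (by linear_combination k1 - e ^ 2 * h)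
        exact one_ne_zero (show (1 : ZMod p) = 0 by linear_combination this - hk' - k * h)
      have ha : (a : ZMod p) = 0 → False := fun h => by
        rcases mul_eq_zero.1 (show (2 : ZMod p) * e ^ 2 = 0 by linear_combination k1 - a * h)
          with h' | h'
        · exact h2 h'
        · exact d h (pow_eq_zero_iff (two_ne_zero) |>.1 h')
      rcases mul_eq_zero.1 k2 with k3 | k3
      · rcases mul_eq_zero.1 k3 with k3 | k3
        · rcases mul_eq_zero.1 k3 with k3 | k3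
          · exact h2 (pow_eq_zero_iff (two_ne_zero) |>.1 (by linear_combination k3))
          · exact ha k3
        · exact ha (pow_eq_zero_iff (two_ne_zero) |>.1 (by linear_combination k1 - 2 * e * k3))
      · rcases mul_eq_zero.1 (show (2 : ZMod p) * a ^ 2 = 0 by linear_combination k1 + k3)
          with h' | h'
        · exact h2 h'
        · exact ha (pow_eq_zero_iff (two_ne_zero) |>.1 h')
    have : (a ^ 2 + 2 * e ^ 2) ^ 2 ∣ A :=
      (hc.pow_left (m := 2)).dvd_of_dvd_mul_right ⟨E, e1⟩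
    have := Int.le_of_dvd p' this
    nlinarith [sq_nonneg e, sq_nonneg a, sq_nonneg (e * a), sq_nonneg (e ^ 2)]

lemma sq_class {u v : ℚ} {b : ℤ} (hb : b ∣ 8) (hu : 0 < u) (h : u * (u ^ 2 + b) = v ^ 2) :
    ∃ s : ℚ, u = s ^ 2 ∨ u = 2 * s ^ 2 := by
  have c := rat_cop u
  have n := rat_num u
  have pa : 0 < u.num := Rat.num_pos.2 hu
  have pe : (0 : ℤ) < u.den := by exact_mod_cast u.den_pos
  obtain ⟨m, hm⟩ : IsSquare (u.den * (u.num * (u.num ^ 2 + b * u.den ^ 2)) : ℤ) := by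
    rw [← Rat.isSquare_intCast_iff]
    refine ⟨v * u.den ^ 2, ?_⟩
    push_cast; rw [n]
    linear_combination (u.den : ℚ) ^ 4 * h
  have hu' : u = u.num / (u.den : ℤ) := by simp [Rat.num_div_den]
  generalize u.num = a at *
  generalize (u.den : ℤ) = e at *
  have hc : IsCoprime e (a * (a ^ 2 + b * e ^ 2)) := by
    refine cop_of_field _ _ fun p _ k1 k2 => cop_field c p ?_ k1
    push_cast at k2
    exact pow_eq_zero_iff (three_ne_zero) |>.1 (by linear_combination k2 - a * b * e * k1)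
  obtain ⟨e0, he0⟩ : ∃ e0, e = e0 ^ 2 := by
    obtain ⟨e0, h | h⟩ := Int.sq_of_isCoprime hc (hm.trans (sq m).symm)
    · exact ⟨e0, h⟩
    · nlinarith [sq_nonneg e0]
  obtain ⟨w, hw⟩ : ∃ w, a * (a ^ 2 + b * e ^ 2) = w ^ 2 := by
    obtain ⟨w, h | h⟩ := Int.sq_of_isCoprime hc.symm ((mul_comm _ _).trans (hm.trans (sq m).symm))
    · exact ⟨w, h⟩
    · refine ⟨0, ?_⟩
      have : 0 ≤ e * (a * (a ^ 2 + b * e ^ 2)) := by rw [hm]; exact mul_self_nonneg _
      have := (mul_nonneg_iff_of_pos_left pe).1 this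
      nlinarith [sq_nonneg w]
  obtain ⟨a1, c1, hc1, ha1, hc1'⟩ := Int.exists_gcd_one (m := a) (n := a ^ 2 + b * e ^ 2)
    (Int.gcd_pos_of_ne_zero_left _ pa.ne')
  have hg : ((Int.gcd a (a ^ 2 + b * e ^ 2) : ℕ) : ℤ) ∣ 8 := by
    refine dvd_trans ?_ hb
    have h1 := Int.gcd_dvd_left a (a ^ 2 + b * e ^ 2)
    have h2 := Int.gcd_dvd_right a (a ^ 2 + b * e ^ 2)
    have h3 : ((Int.gcd a (a ^ 2 + b * e ^ 2) : ℕ) : ℤ) ∣ b * e ^ 2 := by
      have := dvd_sub h2 (h1.mul_left a)
      simpa [sq] using this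
    exact ((c.of_isCoprime_of_dvd_left h1).pow_right (n := 2)).dvd_of_dvd_mul_right h3
  have hgp : 0 < Int.gcd a (a ^ 2 + b * e ^ 2) := Int.gcd_pos_of_ne_zero_left _ pa.ne'
  generalize Int.gcd a (a ^ 2 + b * e ^ 2) = g at *
  have hgp' : (0 : ℤ) < g := by exact_mod_cast hgp
  obtain ⟨w1, hw1⟩ : (g : ℤ) ∣ w := by
    rw [← Int.pow_dvd_pow_iff (two_ne_zero), ← hw, hc1']
    exact ⟨a1 * c1, by rw [ha1]; ring⟩
  have h5 : a1 * c1 = w1 ^ 2 := by
    apply mul_left_cancel₀ (pow_ne_zero 2 hgp'.ne')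
    rw [hc1', hw1] at hw
    rw [ha1] at hw
    linear_combination hw
  obtain ⟨a0, ha0⟩ : ∃ a0, a1 = a0 ^ 2 := by
    obtain ⟨a0, h | h⟩ := Int.sq_of_gcd_eq_one hc1 h5
    · exact ⟨a0, h⟩
    · exfalso
      rw [ha1, h] at pa
      nlinarith [sq_nonneg a0]
  have he0' : (e0 : ℚ) ≠ 0 := by
    rintro h
    have : e0 = 0 := by exact_mod_cast h
    rw [this] at he0; simp [he0] at pe
  have hg' : g ∣ 8 := by exact_mod_cast hg
  have := Nat.le_of_dvd (by norm_num) hg'
  rw [hu', ha1, ha0, he0]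
  interval_cases g <;> simp at hg'
  · exact ⟨a0 / e0, Or.inl (by push_cast; field_simp)⟩
  · exact ⟨a0 / e0, Or.inr (by push_cast; field_simp)⟩
  · exact ⟨2 * a0 / e0, Or.inl (by push_cast; field_simp; norm_num)⟩
  · exact ⟨2 * a0 / e0, Or.inr (by push_cast; field_simp; norm_num)⟩

end Vale.Agent.P345
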