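import Vale.Agent.P345.Exp

/-! Counting the zeros of a polynomial in a cube is single-fold Diophantine. -/

namespace Vale.Agent.P345

open Finset

variable {X : Type} [Ctx X]

lemma hw_zero : hw 0 = 0 := by simp [hw]

lemma hw_add (k r x : ℕ) (hr : r < 2 ^ k) : hw (r + 2 ^ k * x) = hw r + hw x := by
  induction k generalizing r with
  | zero =>
    have : r = 0 := by omega
    simp [this, hw_zero]
  | succ k ih =>
    have h1 : r + 2 ^ (k + 1) * x = r % 2 + 2 * (r / 2 + 2 ^ k * x) := by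
      rw [pow_succ, mul_comm _ 2, mul_assoc]; omega
    have h2 := hw_step (r / 2) (r % 2) (by omega)
    rw [Nat.mod_add_div] at h2
    rw [h1, hw_step _ _ (by omega), ih _ (by omega), h2, add_assoc]

lemma hw_compl (k r : ℕ) (hr : r < 2 ^ k) : hw r + hw (2 ^ k - 1 - r) = k := by
  induction k generalizing r with
  | zero =>
    have : r = 0 := by omega
    simp [this, hw_zero]
  | succ k ih =>
    have h1 : 2 ^ (k + 1) - 1 - r = (1 - r % 2) + 2 * (2 ^ k - 1 - r / 2) := by omega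
    have h2 := hw_step (r / 2) (r % 2) (by omega)
    rw [Nat.mod_add_div] at h2
    have := ih (r / 2) (by omega)
    rw [h1, hw_step _ _ (by omega), h2]
    omega

lemma hw_sum (k : ℕ) (d : ℕ → ℕ) (n : ℕ) (h : ∀ i < n, d i < 2 ^ k) :
    hw (∑ i ∈ range n, d i * (2 ^ k) ^ i) = ∑ i ∈ range n, hw (d i) := by
  induction n generalizing d with
  | zero => simp [hw_zero]
  | succ n ih =>
    have e : ∑ i ∈ range (n + 1), d i * (2 ^ k) ^ i =
        d 0 + 2 ^ k * ∑ i ∈ range n, d (i + 1) * (2 ^ k) ^ i := by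
      rw [sum_range_succ', mul_sum, add_comm]
      simp only [pow_zero, mul_one, pow_succ]
      congr 1
      exact sum_congr rfl fun _ _ => by ring
    rw [e, hw_add _ _ _ (h 0 (by omega)), ih (fun i => d (i + 1)) fun i hi => h _ (by omega),
      sum_range_succ', add_comm]

lemma hw_delta (u s : ℕ) (hs : s ≤ 2 ^ u) : (2 ^ u - 1) * (2 ^ u + 1 - s) < 2 ^ (u + u) ∧
    hw ((2 ^ u - 1) * (2 ^ u + 1 - s)) = u + if s = 0 then u else 0 := by
  have h1 := Nat.one_le_two_pow (n := u)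
  obtain ⟨c, hc⟩ : ∃ c, 2 ^ u = c + 1 := ⟨2 ^ u - 1, by omega⟩
  constructor
  · rw [pow_add, hc, Nat.add_sub_cancel]
    have : c * (c + 1 + 1 - s) ≤ c * (c + 1 + 1) := by gcongr; omega
    nlinarith
  · have h0 := hw_compl u 0 (by omega)
    rw [hw_zero, zero_add, Nat.sub_zero] at h0
    rcases s with _ | s
    · rw [show (2 ^ u - 1) * (2 ^ u + 1 - 0) = 2 ^ u - 1 + 2 ^ u * (2 ^ u - 1) by
        rw [Nat.sub_zero]; ring, hw_add _ _ _ (by omega), h0]
      simp
    · obtain ⟨d, hd⟩ : ∃ d, c = s + d := ⟨c - s, by omega⟩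
      have : (2 ^ u - 1) * (2 ^ u + 1 - (s + 1)) = s + 2 ^ u * (2 ^ u - 1 - s) := by
        rw [hc, hd, show s + d + 1 + 1 - (s + 1) = d + 1 by omega,
          show s + d + 1 - 1 - s = d by omega, Nat.add_sub_cancel]
        ring
      rw [this, hw_add _ _ _ (by omega), hw_compl _ _ (by omega)]
      simp

/-- Generalised geometric progressions. -/
def GG (r q t : ℕ) : ℕ := ∑ j ∈ range t, j ^ r * (q + 2) ^ j

lemma GG_rec (r q t : ℕ) : (q + 1) * GG r q t +
    ((q + 2) * ∑ s ∈ range r, r.choose s * GG s q t + 0 ^ r) = t ^ r * (q + 2) ^ t := by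
  induction t with
  | zero => simp [GG]
  | succ t ih =>
    simp only [GG, sum_range_succ, mul_add (r.choose _), sum_add_distrib] at ih ⊢
    have h : (t + 1) ^ r = ∑ s ∈ range r, r.choose s * t ^ s + t ^ r := by
      rw [add_pow, sum_range_succ]; simp [mul_comm]
    have h2 : ∑ s ∈ range r, r.choose s * (t ^ s * (q + 2) ^ t) =
        (∑ s ∈ range r, r.choose s * t ^ s) * (q + 2) ^ t := by
      rw [sum_mul]; exact sum_congr rfl fun _ _ => by ring
    rw [h, h2, pow_succ]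
    linarith

lemma df_GG (r : ℕ) : DF (fun z : ℕ × ℕ => GG r z.1 z.2) := by
  induction r using Nat.strong_induction_on with
  | _ r ih =>
    have h : DF (fun z : ℕ × ℕ => ∑ s ∈ range r, r.choose s * GG s z.1 z.2) :=
      DF.sum _ fun s hs => (DF.const _).mul (ih s (mem_range.1 hs))
    have h2 : DF (fun z : ℕ × ℕ => (z.2 ^ r * (z.1 + 2) ^ z.2 -
        ((z.1 + 2) * ∑ s ∈ range r, r.choose s * GG s z.1 z.2 + 0 ^ r)) / (z.1 + 1)) :=
      DF.div (DF.sub (by fun_prop) ((DF.mul (by fun_prop) h).add (by fun_prop))) (by fun_prop)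
    refine h2.congr fun z => ?_
    rw [← GG_rec, Nat.add_sub_cancel, Nat.mul_div_cancel_left _ (by omega)]

/-- Differences of single-fold Diophantine functions. -/
def DZ (f : X → ℤ) : Prop := ∃ g h : X → ℕ, DF g ∧ DF h ∧ ∀ x, f x = g x - h x

lemma DZ.cast {f : X → ℕ} (hf : DF f) : DZ (fun x => (f x : ℤ)) :=
  ⟨f, fun _ => 0, hf, DF.const _, by simp⟩
lemma DZ.const (c : ℤ) : DZ (fun _ : X => c) :=
  ⟨fun _ => c.toNat, fun _ => (-c).toNat, DF.const _, DF.const _, by simp⟩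
lemma DZ.add {f f' : X → ℤ} (hf : DZ f) (hf' : DZ f') : DZ (fun x => f x + f' x) := by
  obtain ⟨g, h, hg, hh, e⟩ := hf
  obtain ⟨g', h', hg', hh', e'⟩ := hf'
  exact ⟨_, _, hg.add hg', hh.add hh', fun x => by simp only [e, e']; push_cast; ring⟩
lemma DZ.mul {f f' : X → ℤ} (hf : DZ f) (hf' : DZ f') : DZ (fun x => f x * f' x) := by
  obtain ⟨g, h, hg, hh, e⟩ := hf
  obtain ⟨g', h', hg', hh', e'⟩ := hf'
  exact ⟨_, _, (hg.mul hg').add (hh.mul hh'), (hg.mul hh').add (hh.mul hg'),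
    fun x => by simp only [e, e']; push_cast; ring⟩
lemma DZ.toNat {f : X → ℤ} (hf : DZ f) : DF (fun x => (f x).toNat) := by
  obtain ⟨g, h, hg, hh, e⟩ := hf
  exact (hg.sub hh).congr fun x => by rw [e]; omega
lemma DZ.congr {f g : X → ℤ} (hf : DZ f) (h : ∀ x, f x = g x) : DZ g := by
  have : f = g := funext h
  exact this ▸ hf

variable {m : ℕ}

lemma dz_sum {F : X × (Fin m → ℕ) → ℤ} (hF : IsP F) :
    DZ (fun z : X × ℕ × ℕ => ∑ v : Fin m → Fin (z.2.1 + 1),
      F (z.1, fun i => v i) * ((z.2.2 + 2) ^ (finFunctionFinEquiv v : ℕ) : ℕ)) := by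
  obtain ⟨P, hP⟩ := hF
  simp only [hP]
  clear hP
  induction P using MvPolynomial.induction_on' with
  | add p q hp hq => exact (hp.add hq).congr fun z => by simp [add_mul, sum_add_distrib]
  | monomial u a =>
    have h1 : DF (fun z : X × ℕ × ℕ => ∏ i, Ctx.co z.1 i ^ u (Sum.inl i)) :=
      DF.prod _ fun i _ => DF.powc (((PM.co i).comp (g := fun z : X × ℕ × ℕ => z.1)
        (by fun_prop)).df) _
    have h2 : DF (fun z : X × ℕ × ℕ =>
        ∏ i : Fin m, GG (u (Sum.inr i)) ((z.2.2 + 2) ^ (z.2.1 + 1) ^ (i : ℕ) - 2) (z.2.1 + 1)) :=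
      DF.prod _ fun i _ => (df_GG _).comp (g := fun z : X × ℕ × ℕ =>
        ((z.2.2 + 2) ^ (z.2.1 + 1) ^ (i : ℕ) - 2, z.2.1 + 1)) (by fun_prop)
    refine ((DZ.const a).mul (DZ.cast (h1.mul h2))).congr ?_
    rintro ⟨x, t, b⟩
    have h3 : ∀ i : Fin m, (b + 2) ^ (t + 1) ^ (i : ℕ) - 2 + 2 = (b + 2) ^ (t + 1) ^ (i : ℕ) :=
      fun i => Nat.sub_add_cancel (le_trans (by omega) (Nat.le_self_pow (by positivity) _))
    simp only [GG, h3, ← Fin.sum_univ_eq_sum_range (fun j => j ^ _ * _ ^ j), Fintype.prod_sum,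
      MvPolynomial.eval_monomial, mul_sum, finFunctionFinEquiv_apply]
    push_cast
    rw [mul_sum]
    refine sum_congr rfl fun v _ => ?_
    rw [Finsupp.prod_fintype _ _ (by simp)]
    erw [Fintype.prod_sum_type]
    simp only [co_inl, co_inr, prod_mul_distrib, ← prod_pow_eq_pow_sum, ← pow_mul, mul_comm]
    simp only [mul_assoc, mul_left_comm]
    congr 2
    exact mul_comm _ _

lemma ex_bound {F : X × (Fin m → ℕ) → ℤ} (hF : IsP F) : ∃ b : X × ℕ → ℕ, DF b ∧
    ∀ x t v, (∀ i, v i ≤ t) → (F (x, v)).natAbs ≤ b (x, t) := by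
  obtain ⟨P, hP⟩ := hF
  simp only [hP]
  clear hP
  induction P using MvPolynomial.induction_on with
  | C a => exact ⟨fun _ => a.natAbs, DF.const _, by simp⟩
  | add p q hp hq =>
    obtain ⟨b, hb, h⟩ := hp
    obtain ⟨b', hb', h'⟩ := hq
    refine ⟨_, hb.add hb', fun x t v hv => ?_⟩
    rw [map_add]
    exact (Int.natAbs_add_le _ _).trans (add_le_add (h x t v hv) (h' x t v hv))
  | mul_X p n hp =>
    obtain ⟨b, hb, h⟩ := hp
    rcases n with i | i
    · refine ⟨_, hb.mul (((PM.co i).comp (g := fun z : X × ℕ => z.1) (by fun_prop)).df),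
        fun x t v hv => ?_⟩
      rw [map_mul, Int.natAbs_mul, MvPolynomial.eval_X]
      exact Nat.mul_le_mul (h x t v hv) le_rfl
    · refine ⟨_, hb.mul (g := fun z => z.2) (by fun_prop), fun x t v hv => ?_⟩
      rw [map_mul, Int.natAbs_mul, MvPolynomial.eval_X]
      exact Nat.mul_le_mul (h x t v hv) (hv i)

def cnt (F : X × (Fin m → ℕ) → ℤ) (x : X) (t : ℕ) : ℕ :=
  (univ.filter fun v : Fin m → Fin (t + 1) => F (x, fun i => v i) = 0).card

lemma df_cnt {F : X × (Fin m → ℕ) → ℤ} (hF : IsP F) : DF (fun z : X × ℕ => cnt F z.1 z.2) := by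
  obtain ⟨b, hb, hbd⟩ := ex_bound hF
  have hu : DF (fun z => b z * b z + 1) := by fun_prop
  obtain ⟨u, hu, hu1, hu2⟩ : ∃ u : X × ℕ → ℕ, DF u ∧ (∀ z, 0 < u z) ∧
      ∀ x t v, (∀ i, v i ≤ t) → (F (x, v) * F (x, v)).natAbs ≤ 2 ^ u (x, t) :=
    ⟨_, hu, fun _ => by omega, fun x t v hv => by
      rw [Int.natAbs_mul]
      exact (Nat.mul_le_mul (hbd x t v hv) (hbd x t v hv)).trans
        ((Nat.le_succ _).trans Nat.lt_two_pow_self.le)⟩
  have hc : ∀ {f : X × ℕ × ℕ → ℤ}, DZ f → DZ fun z : X × ℕ => f (z.1, z.2, 2 ^ (u z + u z) - 2) := by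
    rintro f ⟨g, h, hg, hh, e⟩
    exact ⟨_, _, hg.comp (by fun_prop), hh.comp (by fun_prop), fun x => e _⟩
  have h1 := hc (dz_sum (X := X) (m := m) (IsP.const 1))
  have h2 := hc (dz_sum (hF.mul hF))
  have h3 := ((DZ.cast (f := fun z => 2 ^ u z - 1) (by fun_prop)).mul
    (((DZ.cast (f := fun z => 2 ^ u z + 1) (by fun_prop)).mul h1).add
      ((DZ.const (-1)).mul h2))).toNat
  refine ((h3.hw.div hu).sub (g := fun z => (z.2 + 1) ^ m) (by fun_prop)).congr ?_
  rintro ⟨x, t⟩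
  have hB : 2 ^ (u (x, t) + u (x, t)) - 2 + 2 = 2 ^ (u (x, t) + u (x, t)) :=
    Nat.sub_add_cancel (Nat.le_self_pow (by have := hu1 (x, t); omega) _)
  have hu3 : ∀ v : Fin m → Fin (t + 1), _ := fun v => hu2 x t (fun i => v i) fun i => (v i).is_le
  have hpos := hu1 (x, t)
  simp only [hB]
  generalize u (x, t) = w at *
  set d : (Fin m → Fin (t + 1)) → ℕ := fun v =>
    (2 ^ w - 1) * (2 ^ w + 1 - (F (x, fun i => v i) * F (x, fun i => v i)).natAbs) with hd
  set d' : ℕ → ℕ := fun i => if h : i < (t + 1) ^ m then d (finFunctionFinEquiv.symm ⟨i, h⟩) else 0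
    with hd'
  have hre : ∀ g : ℕ → ℕ → ℕ, ∑ i ∈ range ((t + 1) ^ m), g (d' i) i =
      ∑ v, g (d v) (finFunctionFinEquiv v) := fun g => by
    rw [← Fin.sum_univ_eq_sum_range (fun i => g (d' i) i), ← finFunctionFinEquiv.sum_comp]
    simp only [hd', Fin.is_lt, dif_pos, Fin.eta, Equiv.symm_apply_apply]
  have h4 : hw (∑ v, d v * (2 ^ (w + w)) ^ (finFunctionFinEquiv v : ℕ)) = ∑ v, hw (d v) := by
    rw [← hre (fun a i => a * (2 ^ (w + w)) ^ i), ← hre (fun a _ => hw a)]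
    refine hw_sum _ _ _ fun i hi => ?_
    simp only [hd', dif_pos hi]
    exact (hw_delta _ _ (hu3 _)).1
  have h5 : ∑ v, hw (d v) = w * ((t + 1) ^ m + cnt F x t) := by
    simp only [hd, fun v => (hw_delta _ _ (hu3 v)).2, sum_add_distrib, Int.natAbs_eq_zero,
      mul_self_eq_zero]
    rw [← sum_filter]
    simp [cnt, mul_add, mul_comm]
  have h6 : ((∑ v, d v * (2 ^ (w + w)) ^ (finFunctionFinEquiv v : ℕ) : ℕ) : ℤ) =
      ((2 ^ w - 1 : ℕ) : ℤ) * (((2 ^ w + 1 : ℕ) : ℤ) *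
        ∑ v : Fin m → Fin (t + 1), 1 * (((2 ^ (w + w)) ^ (finFunctionFinEquiv v : ℕ) : ℕ) : ℤ) +
        -1 * ∑ v : Fin m → Fin (t + 1), F (x, fun i => v i) * F (x, fun i => v i) *
          (((2 ^ (w + w)) ^ (finFunctionFinEquiv v : ℕ) : ℕ) : ℤ)) := by
    rw [mul_sum, mul_sum, ← sum_add_distrib, mul_sum, Nat.cast_sum]
    refine sum_congr rfl fun v _ => ?_
    rw [hd, Nat.cast_mul, Nat.cast_mul, Nat.cast_sub ((hu3 v).trans (Nat.le_succ _)),
      Int.natCast_natAbs, abs_mul_self]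
    ring
  rw [← h6, Int.toNat_natCast, h4, h5, Nat.mul_div_cancel_left _ hpos, Nat.add_sub_cancel_left]

end Vale.Agent.P345
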