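import Vale.Agent.P345.Arith

/-! The rational points with positive abscissa on y^2 = x^3 - 2x are the multiples of (2,2). -/

namespace Vale.Agent.P345

open WeierstrassCurve WeierstrassCurve.Affine WeierstrassCurve.Affine.Point

def EC : Affine ℚ := ⟨0, 0, 0, -2, 0⟩

lemma ns_iff (x y : ℚ) : EC.Nonsingular x y ↔ y ^ 2 = x ^ 3 - 2 * x := by
  rw [← equation_iff_nonsingular_of_Δ_ne_zero, equation_iff]
  · simp [EC, sub_eq_add_neg]
  · simp [EC, Δ, b₂, b₄, b₆, b₈]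

def xx : EC.Point → ℚ
  | .zero => 0
  | .some x _ _ => x

@[simp] lemma xx_some (x y : ℚ) (h) : xx (.some x y h) = x := rfl
@[simp] lemma xx_zero : xx 0 = 0 := rfl
@[simp] lemma xx_neg (Q : EC.Point) : xx (-Q) = xx Q := by cases Q <;> rfl

def PP : EC.Point := .some 2 2 ((ns_iff _ _).2 (by norm_num))

@[simp] lemma xx_PP : xx PP = 2 := rfl

lemma ex_some {Q : EC.Point} (h : 0 < xx Q) : ∃ x y hh, Q = .some x y hh := by
  cases Q with
  | zero => exact absurd h (lt_irrefl _)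
  | some x y hh => exact ⟨x, y, hh, rfl⟩

lemma eq_or_neg {Q Q' : EC.Point} (h : 0 < xx Q) (h' : xx Q = xx Q') : Q = Q' ∨ Q = -Q' := by
  obtain ⟨x, y, hh, rfl⟩ := ex_some h
  obtain ⟨x', y', hh', rfl⟩ := ex_some (h' ▸ h)
  exact X_eq_iff.1 h'

lemma on_curve {Q : EC.Point} (h : 0 < xx Q) : ∃ y, y ^ 2 = xx Q ^ 3 - 2 * xx Q := by
  obtain ⟨x, y, hh, rfl⟩ := ex_some h
  exact ⟨y, (ns_iff _ _).1 hh⟩

lemma ex_point {x y : ℚ} (h : y ^ 2 = x ^ 3 - 2 * x) : ∃ Q, xx Q = x :=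
  ⟨.some x y ((ns_iff _ _).2 h), rfl⟩

lemma sq_ne_two (x : ℚ) : x ^ 2 ≠ 2 := fun h => by
  have : IsSquare ((2 : ℕ) : ℚ) := ⟨x, by rw [← sq, h]; norm_num⟩
  rw [Rat.isSquare_natCast_iff] at this
  exact Nat.prime_two.not_isSquare this

lemma gt_of {x y : ℚ} (hx : 0 < x) (h : y ^ 2 = x ^ 3 - 2 * x) : 2 < x ^ 2 := by
  refine lt_of_le_of_ne ?_ (sq_ne_two x).symm
  by_contra hh
  nlinarith [sq_nonneg y]

lemma one_lt_xx {Q : EC.Point} (h : 0 < xx Q) : 1 < xx Q := by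
  obtain ⟨y, hy⟩ := on_curve h
  have := gt_of h hy
  nlinarith

lemma add_PP (x y : ℚ) (hh) (h2 : x ≠ 2) :
    xx (.some x y hh + PP) = ((y - 2) / (x - 2)) ^ 2 - x - 2 := by
  rw [PP, add_of_X_ne h2, xx_some, slope_of_X_ne h2]
  simp [addX, EC]

lemma step {Q : EC.Point} (h : 0 < xx Q) (h2 : xx Q ≠ 2) :
    0 < xx (Q + PP) ∧ 0 < xx (Q - PP) ∧
    (xx (Q + PP) + xx (Q - PP)) * (xx Q - 2) ^ 2 = 4 * (xx Q + 2) * (xx Q - 1) ∧
    xx (Q + PP) * xx (Q - PP) * (xx Q - 2) ^ 2 = 4 * (xx Q + 1) ^ 2 ∧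
    (∃ v, 2 * xx Q * xx (Q + PP) = v ^ 2) ∧ (∃ v, 2 * xx Q * xx (Q - PP) = v ^ 2) := by
  have h1 := one_lt_xx h
  obtain ⟨x, y, hh, rfl⟩ := ex_some h
  have e3 := add_PP x y hh h2
  have e4 : xx (.some x y hh - PP) = ((-y - 2) / (x - 2)) ^ 2 - x - 2 := by
    rw [← xx_neg, neg_sub, sub_eq_add_neg, add_comm, neg_some, add_PP x _ _ h2]
    simp [negY, EC]
  have hy := (ns_iff _ _).1 hh
  simp only [xx_some] at h h1 h2 ⊢
  have hx : x - 2 ≠ 0 := sub_ne_zero.2 h2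
  have hs : (xx (.some x y hh + PP) + xx (.some x y hh - PP)) * (x - 2) ^ 2 =
      4 * (x + 2) * (x - 1) := by
    rw [e3, e4]; field_simp; linear_combination 2 * hy
  have hp : xx (.some x y hh + PP) * xx (.some x y hh - PP) * (x - 2) ^ 2 = 4 * (x + 1) ^ 2 := by
    rw [e3, e4]; field_simp
    linear_combination (y ^ 2 - x ^ 3 + 4 * x ^ 2 + 6 * x - 24) * hy
  have hx2 : 0 < (x - 2) ^ 2 := by positivity
  have q1 : 0 < xx (.some x y hh + PP) + xx (.some x y hh - PP) := by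
    by_contra hn
    nlinarith
  have q2 : 0 < xx (.some x y hh + PP) * xx (.some x y hh - PP) := by
    by_contra hn
    nlinarith
  refine ⟨?_, ?_, hs, hp, ⟨2 - 2 * ((y - 2) / (x - 2)), ?_⟩, ⟨2 - 2 * ((-y - 2) / (x - 2)), ?_⟩⟩
  · by_contra hn
    nlinarith
  · by_contra hn
    nlinarith
  · rw [e3]; field_simp; linear_combination (x - 2) * hy
  · rw [e4]; field_simp; linear_combination (x - 2) * hy

lemma dbl {x y : ℚ} (hh) (h : 0 < x) :
    xx (.some x y hh + .some x y hh) * (4 * y ^ 2) = (x ^ 2 + 2) ^ 2 ∧ y ≠ 0 := by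
  have hy := (ns_iff _ _).1 hh
  have h2 := gt_of h hy
  have hy0 : y ≠ 0 := by
    rintro rfl
    nlinarith
  have hne : y ≠ EC.negY x y := by
    simp only [negY, EC]
    intro h; apply hy0; linarith
  refine ⟨?_, hy0⟩
  rw [add_self_of_Y_ne hne, xx_some, slope_of_Y_ne rfl hne]
  simp only [addX, negY, EC]
  have : y - (-y - 0 * x - 0) = 2 * y := by ring
  rw [this]
  field_simp
  linear_combination (-32 * x) * hy

lemma dbl_height {Q : EC.Point} (h : 0 < xx Q) :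
    0 < xx (Q + Q) ∧ (xx Q).num ^ 4 ≤ 4 * (xx (Q + Q)).num := by
  obtain ⟨x, y, hh, rfl⟩ := ex_some h
  obtain ⟨h1, h2⟩ := dbl hh h
  have h3 : 0 < xx (.some x y hh + .some x y hh) := by
    by_contra hn
    have : 0 < y ^ 2 := by positivity
    nlinarith [sq_nonneg x]
  exact ⟨h3, height_dbl h3 ((ns_iff _ _).1 hh) h1⟩

lemma halve {Q : EC.Point} (h : 0 < xx Q) {s : ℚ} (hs : xx Q = s ^ 2) :
    ∃ Q1, 0 < xx Q1 ∧ xx Q = xx (Q1 + Q1) := by
  obtain ⟨y, hy⟩ := on_curve h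
  rw [hs] at hy h
  have hs0 : s ≠ 0 := by rintro rfl; simp at h
  obtain ⟨t, ht⟩ : ∃ t, t ^ 2 = s ^ 4 - 2 := ⟨y / s, by field_simp; linear_combination hy⟩
  have key : ∀ t : ℚ, t ^ 2 = s ^ 4 - 2 → ∀ m : ℚ, 2 * s ^ 2 + 2 * t = m ^ 2 →
      ∃ Q1, 0 < xx Q1 ∧ xx Q = xx (Q1 + Q1) := by
    intro t ht m hm
    have hm4 : m ^ 4 + 8 = 4 * s ^ 2 * m ^ 2 := by
      linear_combination (-(m ^ 2) - 2 * t + 2 * s ^ 2) * hm + 4 * ht
    have k2 : ∀ s' : ℚ, s' ^ 2 = s ^ 2 → 0 < m * (m + 2 * s') →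
        ∃ Q1, 0 < xx Q1 ∧ xx Q = xx (Q1 + Q1) := by
      intro s' hs' hpos
      rw [← hs'] at hm4
      have hc : (m * (m * (m + 2 * s') / 2)) ^ 2 = (m * (m + 2 * s') / 2) ^ 3 -
          2 * (m * (m + 2 * s') / 2) := by
        linear_combination (m * (m + 2 * s') / 8) * hm4
      have hp : 0 < m * (m + 2 * s') / 2 := by positivity
      obtain ⟨h1, h2⟩ := dbl ((ns_iff _ _).2 hc) hp
      refine ⟨.some _ _ ((ns_iff _ _).2 hc), hp, ?_⟩
      rw [hs, ← hs']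
      apply mul_right_cancel₀ (b := 4 * (m * (m * (m + 2 * s') / 2)) ^ 2) (by positivity)
      rw [h1]
      linear_combination (-(m ^ 4 + 8 * m ^ 3 * s' + 12 * m ^ 2 * s' ^ 2 + 8) / 16) * hm4
    by_cases hp : 0 < m * (m + 2 * s)
    · exact k2 s rfl hp
    · refine k2 (-s) (by ring) ?_
      by_contra hn
      have : m * (m + 2 * s) * (m * (m + 2 * -s)) = -8 := by linear_combination hm4
      nlinarith
  have hu : 0 < 2 * s ^ 2 + 2 * t := by
    by_contra hn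
    nlinarith
  obtain ⟨m, hm | hm⟩ := sq_class (b := 8) (u := 2 * s ^ 2 + 2 * t)
    (v := 2 * s * (2 * s ^ 2 + 2 * t)) dvd_rfl hu (by push_cast; linear_combination (8 * s ^ 2 + 8 * t) * ht)
  · exact key t ht m hm
  · have hm0 : m ≠ 0 := by rintro rfl; simp [hm] at hu
    refine key (-t) (by linear_combination ht) (2 / m) ?_
    field_simp
    linear_combination (-(s ^ 2 - t) / 2) * hm - ht

lemma two_le_num {Q : EC.Point} (h : 0 < xx Q) : 2 ≤ (xx Q).num ∧ ((xx Q).num = 2 → xx Q = 2) := by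
  have h1 := one_lt_xx h
  have n := rat_num (xx Q)
  have pe : (1 : ℤ) ≤ (xx Q).den := by exact_mod_cast (xx Q).den_pos
  have hlt : ((xx Q).den : ℤ) < (xx Q).num := by
    have : (((xx Q).den : ℤ) : ℚ) < (xx Q).num := by
      rw [n]; push_cast
      have : (0 : ℚ) < (xx Q).den := by exact_mod_cast (xx Q).den_pos
      nlinarith
    exact_mod_cast this
  refine ⟨by omega, fun h2 => ?_⟩
  have : (xx Q).den = 1 := by omega
  rw [h2, this] at n
  simpa using n.symm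

theorem descent (Q : EC.Point) (h : 0 < xx Q) : ∃ k : ℤ, Q = k • PP := by
  induction hN : (xx Q).num.toNat using Nat.strong_induction_on generalizing Q with
  | _ N ih =>
  have hQ := two_le_num h
  have key : ∀ Q' : EC.Point, 0 < xx Q' → (∃ s, xx Q' = s ^ 2) →
      ((xx Q').num ≤ (xx Q).num ∨ ((xx Q').num ≤ 4 * (xx Q).num ∧ 3 ≤ (xx Q).num)) →
      ∃ k : ℤ, Q' = k • PP := by
    rintro Q' h' ⟨s, hs⟩ hle
    obtain ⟨Q1, h1, h2⟩ := halve h' hs
    have h3 := (dbl_height h1).2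
    have h4 := (two_le_num h1).1
    rw [← h2] at h3
    obtain ⟨k, hk⟩ := ih (xx Q1).num.toNat (by
      have : (xx Q1).num < (xx Q).num := by
        by_contra hn
        have hn := not_lt.1 hn
        generalize (xx Q1).num = b at *
        generalize (xx Q).num = a at *
        generalize (xx Q').num = c at *
        rcases hle with hle | ⟨hle, h5⟩
        · have : 2 ^ 3 ≤ b ^ 3 := by gcongr
          nlinarith
        · have : 3 ^ 3 ≤ b ^ 3 := by gcongr; omega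
          nlinarith
      omega) Q1 h1 rfl
    rcases eq_or_neg h' h2 with h | h
    · exact ⟨k + k, by rw [h, hk, add_zsmul]⟩
    · exact ⟨-(k + k), by rw [h, hk, neg_zsmul, add_zsmul]⟩
  obtain ⟨y, hy⟩ := on_curve h
  obtain ⟨s, hs | hs⟩ := sq_class (b := -2) (v := y) (by norm_num) h
    (by push_cast; linear_combination -hy)
  · exact key Q h ⟨s, hs⟩ (Or.inl le_rfl)
  · by_cases h2 : xx Q = 2
    · rcases eq_or_neg (Q' := PP) h h2 with h | h
      · exact ⟨1, by simp [h]⟩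
      · exact ⟨-1, by simp [h]⟩
    have h3 : 3 ≤ (xx Q).num := by
      by_contra hn
      exact h2 (hQ.2 (by omega))
    obtain ⟨p3, p4, e1, e2, ⟨v3, e3⟩, ⟨v4, e4⟩⟩ := step h h2
    have hh := (height_step (one_lt_xx h) h2 p3 p4 e1 e2).2
    have hs0 : s ≠ 0 := by rintro rfl; simp [hs] at h
    by_cases hc : (xx (Q + PP)).num ≤ 4 * (xx Q).num
    · obtain ⟨k, hk⟩ := key _ p3 ⟨v3 / (2 * s), by
        field_simp; rw [hs] at e3; linear_combination e3⟩ (Or.inr ⟨hc, h3⟩)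
      exact ⟨k - 1, by rw [sub_zsmul, ← hk]; simp⟩
    · obtain ⟨k, hk⟩ := key _ p4 ⟨v4 / (2 * s), by
        field_simp; rw [hs] at e4; linear_combination e4⟩ (Or.inr ⟨by
          by_contra hn
          nlinarith, h3⟩)
      exact ⟨k + 1, by rw [add_zsmul, ← hk]; simp⟩

end Vale.Agent.P345
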