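import Vale.Agent.P345.Growth

/-! Exponentiation, binomial coefficients and binary digit sums are single-fold Diophantine. -/

namespace Vale.Agent.P345

open Pell

lemma xn_le {a : ℕ} (a1 : 1 < a) (n : ℕ) : xn a1 n ≤ (2 * a) ^ n := by
  have : ∀ n, xn a1 (n + 1) ≤ 2 * a * xn a1 n := by
    rintro (_ | n)
    · simp; omega
    · exact le_of_le_of_eq (Nat.le_add_right _ _) (xn_succ_succ a1 n)
  induction n with
  | zero => simp
  | succ n ih => exact (this n).trans (by rw [pow_succ']; gcongr)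

lemma xy_mod {a : ℕ} (a1 : 1 < a) (n : ℕ) :
    yn a1 n * (a - 2) + 2 ^ n ≡ xn a1 n [MOD 4 * a - 5] := by
  have := x_sub_y_dvd_pow a1 2 n
  apply Nat.ModEq.symm
  rw [Nat.modEq_iff_dvd]
  rw [Nat.cast_sub (by omega)]
  push_cast [Nat.cast_sub (show 2 ≤ a from a1)]
  convert this using 1
  · push_cast; ring
  · simp [xz, yz]

def PRel (a w r c x y : ℕ) : Prop :=
  x * x = (a * a - 1) * y * y + 1 ∧ x ≤ w ∧ y % (a - 1) = r ∧ c < 4 * a - 5 ∧
    (y * (a - 2) + c) % (4 * a - 5) = x % (4 * a - 5)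

lemma PRel.sound {K z w r c x y : ℕ} (hz : 2 ≤ z) (hw : ∀ l, z < 2 ^ l → w ≤ 2 ^ (K * (l + 1) ^ 2))
    (h : PRel (z ^ (9 * K + 2)) w r c x y) :
    ∃ a1 : 1 < z ^ (9 * K + 2), x = xn a1 r ∧ y = yn a1 r ∧ c = 2 ^ r := by
  obtain ⟨h1, h2, h3, h4, h5⟩ := h
  have a1 : 1 < z ^ (9 * K + 2) := Nat.one_lt_pow (by omega) hz
  have hl1 : 2 ^ Nat.log 2 z ≤ z := Nat.pow_log_le_self 2 (by omega)
  have hl2 : z < 2 ^ (Nat.log 2 z + 1) := Nat.lt_pow_succ_log_self (by norm_num) _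
  have hl3 : 0 < Nat.log 2 z := Nat.log_pos (by norm_num) hz
  generalize Nat.log 2 z = l at *
  have ha : z * z ≤ z ^ (9 * K + 2) := by
    rw [← sq]; exact Nat.pow_le_pow_right (by omega) (by omega)
  obtain ⟨j, rfl, rfl⟩ := eq_pell a1 (x := x) (y := y)
    (show x * x - (z ^ (9 * K + 2) * z ^ (9 * K + 2) - 1) * y * y = 1 by omega)
  have hj : j ≤ l := by
    have : 2 ^ (l * ((9 * K + 2) * j)) ≤ 2 ^ (K * (l + 1 + 1) ^ 2) :=
      calc _ = ((2 ^ l) ^ (9 * K + 2)) ^ j := by rw [pow_mul, pow_mul]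
        _ ≤ (z ^ (9 * K + 2)) ^ j := by gcongr
        _ ≤ _ := xn_ge_a_pow a1 j
        _ ≤ _ := h2
        _ ≤ _ := hw _ hl2
    have := (Nat.pow_le_pow_iff_right (by norm_num)).1 this
    have h6 : K * (l + 1 + 1) ^ 2 ≤ K * (3 * l) ^ 2 := by gcongr; omega
    have h7 : l * ((9 * K + 2) * j) ≤ l * ((9 * K + 2) * l) := by nlinarith
    exact Nat.le_of_mul_le_mul_left (Nat.le_of_mul_le_mul_left h7 hl3) (by omega)
  have hlt : l < 2 ^ l := Nat.lt_two_pow_self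
  have h2j : 2 ^ j ≤ 2 ^ l := Nat.pow_le_pow_right (by norm_num) hj
  have hzz : 2 * z ≤ z * z := Nat.mul_le_mul_right _ hz
  have hr : j = r := by
    rw [← h3, yn_modEq_a_sub_one a1 j, Nat.mod_eq_of_lt (by omega)]
  subst hr
  refine ⟨a1, rfl, rfl, ?_⟩
  have := (Nat.ModEq.trans h5 (xy_mod a1 j).symm).add_left_cancel' _
  exact this.eq_of_lt_of_lt h4 (by omega)

lemma PRel.complete {t z w r : ℕ} (ht : 2 ≤ t) (hz : 2 ^ ((r + 1) * (2 * t + 1)) ≤ z)
    (hw : ∀ l, 2 ^ l ≤ z → 2 ^ l ^ 2 ≤ w) : ∃ x y, PRel (z ^ t) w r (2 ^ r) x y := by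
  have h0 : 2 ^ (r + 1) ≤ z := le_trans (Nat.pow_le_pow_right (by norm_num) (by nlinarith)) hz
  have hr : r < 2 ^ r := Nat.lt_two_pow_self
  rw [pow_succ] at h0
  have a1 : 1 < z ^ t := Nat.one_lt_pow (by omega) (by omega)
  have hl1 : 2 ^ Nat.log 2 z ≤ z := Nat.pow_log_le_self 2 (by omega)
  have hl2 : z < 2 ^ (Nat.log 2 z + 1) := Nat.lt_pow_succ_log_self (by norm_num) _
  have hl3 : (r + 1) * (2 * t + 1) ≤ Nat.log 2 z := Nat.le_log_of_pow_le (by norm_num) hz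
  generalize Nat.log 2 z = l at *
  have ha : z ≤ z ^ t := Nat.le_self_pow (by omega) _
  refine ⟨xn a1 r, yn a1 r, ?_, ?_, ?_, by omega, xy_mod a1 r⟩
  · have : xn a1 r * xn a1 r - (z ^ t * z ^ t - 1) * yn a1 r * yn a1 r = 1 := pell_eq a1 r
    omega
  · calc _ ≤ _ := xn_le a1 r
      _ ≤ (2 * (2 ^ (l + 1)) ^ t) ^ r := by gcongr
      _ = 2 ^ ((1 + (l + 1) * t) * r) := by rw [pow_mul, pow_add 2 1, pow_mul, pow_one]
      _ ≤ 2 ^ l ^ 2 := by
        apply Nat.pow_le_pow_right (by norm_num)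
        have h1 : 1 ≤ l := by nlinarith
        have h2 : 1 + (l + 1) * t ≤ l * (2 * t + 1) := by nlinarith
        calc _ ≤ l * (2 * t + 1) * r := by gcongr
          _ = l * (r * (2 * t + 1)) := by ring
          _ ≤ l * l := by gcongr; nlinarith
          _ = _ := by ring
      _ ≤ w := hw _ hl1
  · rw [yn_modEq_a_sub_one a1 r, Nat.mod_eq_of_lt (by omega)]

theorem df_two_pow : DF (fun r : ℕ => 2 ^ r) := by
  obtain ⟨K, W, hW, h1, h2⟩ := exists_W
  have hz : ∀ c, 2 ≤ (2 * c + 2) ^ (2 * (9 * K + 2) + 1) := fun c =>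
    le_trans (by omega) (Nat.le_self_pow (by omega) _)
  refine DF.of_graph (p := fun r c => ∃ v : ℕ × ℕ,
    PRel (((2 * c + 2) ^ (2 * (9 * K + 2) + 1)) ^ (9 * K + 2))
      (W ((2 * c + 2) ^ (2 * (9 * K + 2) + 1))) r c v.1 v.2) (DP.ex1 ?_ ?_) ?_
  · have hZ : DF (fun u : (ℕ × ℕ) × ℕ × ℕ => (2 * u.1.2 + 2) ^ (2 * (9 * K + 2) + 1)) :=
      DF.powc (by fun_prop) _
    have hA := hZ.powc (9 * K + 2)
    have hB := hW.comp hZ
    exact DP.comp (p := fun u : ℕ × ℕ × ℕ × ℕ × ℕ × ℕ =>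
      PRel u.1 u.2.1 u.2.2.1 u.2.2.2.1 u.2.2.2.2.1 u.2.2.2.2.2) (by unfold PRel; fun_prop)
      (hA.mk (hB.mk (g := fun u : (ℕ × ℕ) × ℕ × ℕ => (u.1.1, u.1.2, u.2.1, u.2.2)) (by fun_prop)))
  · rintro ⟨r, c⟩ ⟨x, y⟩ ⟨x', y'⟩ h h'
    obtain ⟨_, e1, e2, -⟩ := h.sound (hz _) (h2 _)
    obtain ⟨_, e3, e4, -⟩ := h'.sound (hz _) (h2 _)
    exact Prod.ext (e1.trans e3.symm) (e2.trans e4.symm)
  · intro r c
    constructor
    · rintro ⟨v, h⟩
      obtain ⟨_, -, -, e⟩ := h.sound (hz _) (h2 _)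
      exact e.symm
    · rintro rfl
      obtain ⟨x, y, h⟩ := PRel.complete (t := 9 * K + 2) (r := r)
        (z := (2 * 2 ^ r + 2) ^ (2 * (9 * K + 2) + 1)) (by omega)
        (by rw [pow_mul]; gcongr; omega) (h1 _)
      exact ⟨(x, y), h⟩

variable {X : Type} [Ctx X]

lemma pow_eq_mod (b r : ℕ) : b ^ r = 2 ^ ((b * r + b + 1) * r) % (2 ^ (b * r + b + 1) - b) := by
  have h1 : b < 2 ^ b := Nat.lt_two_pow_self
  have h2 : b ^ r ≤ 2 ^ (b * r) := by rw [pow_mul]; gcongr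
  have h3 : 2 ^ (b * r) ≤ 2 ^ (b * r + b) := Nat.pow_le_pow_right (by norm_num) (by omega)
  have h4 : 2 ^ b ≤ 2 ^ (b * r + b) := Nat.pow_le_pow_right (by norm_num) (by omega)
  have h5 : 2 ^ (b * r + b + 1) ≡ b [MOD 2 ^ (b * r + b + 1) - b] :=
    ((Nat.modEq_iff_dvd' (by omega)).2 dvd_rfl).symm
  rw [pow_mul, h5.pow r, Nat.mod_eq_of_lt (by omega)]

@[fun_prop] lemma DF.pow {f g : X → ℕ} (hf : DF f) (hg : DF g) : DF (fun x => f x ^ g x) := by
  have h := df_two_pow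
  have h1 : DF (fun x => 2 ^ ((f x * g x + f x + 1) * g x)) := h.comp (by fun_prop)
  have h2 : DF (fun x => 2 ^ (f x * g x + f x + 1)) := h.comp (by fun_prop)
  exact (h1.mod (h2.sub hf)).congr fun x => (pow_eq_mod _ _).symm

/-- Digit extraction. -/
lemma digit_sum {B : ℕ} (d : ℕ → ℕ) (n : ℕ) (h : ∀ i < n, d i < B) :
    ∑ i ∈ Finset.range n, d i * B ^ i < B ^ n ∧
      ∀ k < n, (∑ i ∈ Finset.range n, d i * B ^ i) / B ^ k % B = d k := by
  induction n generalizing d with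
  | zero => simp
  | succ n ih =>
    obtain ⟨h1, h2⟩ := ih (fun i => d (i + 1)) fun i hi => h _ (by omega)
    have h0 := h 0 (by omega)
    have e : ∑ i ∈ Finset.range (n + 1), d i * B ^ i =
        d 0 + B * ∑ i ∈ Finset.range n, d (i + 1) * B ^ i := by
      rw [Finset.sum_range_succ', Finset.mul_sum, add_comm]
      simp only [pow_zero, mul_one, pow_succ]
      congr 1
      exact Finset.sum_congr rfl fun _ _ => by ring
    rw [e]
    refine ⟨by rw [pow_succ]; nlinarith, ?_⟩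
    rintro (_ | k) hk
    · simp [Nat.mod_eq_of_lt h0]
    · rw [pow_succ', ← Nat.div_div_eq_div_mul, Nat.add_mul_div_left _ _ (by omega),
        Nat.div_eq_of_lt h0, zero_add]
      exact h2 k (by omega)

lemma choose_eq (n : ℕ) : (n + n).choose n =
    (2 ^ (n + n + 1) + 1) ^ (n + n) / (2 ^ (n + n + 1)) ^ n % 2 ^ (n + n + 1) := by
  rw [add_pow, ← (digit_sum (B := 2 ^ (n + n + 1)) (fun i => (n + n).choose i) (n + n + 1)
    (fun i _ => (Nat.choose_le_two_pow _ _).trans_lt 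
      (Nat.pow_lt_pow_right (by norm_num) (by omega)))).2 n (by omega)]
  simp [mul_comm]

/-- Binary digit sum. -/
def hw (n : ℕ) : ℕ := (Nat.digits 2 n).sum

lemma hw_step (x b : ℕ) (hb : b < 2) : hw (b + 2 * x) = b + hw x := by
  rcases Nat.eq_zero_or_pos (b + 2 * x) with h | h
  · have : b = 0 ∧ x = 0 := by omega
    simp [this.1, this.2, hw]
  · rw [hw, Nat.digits_add 2 (by norm_num) b x hb (by omega)]; simp [hw]

@[fun_prop] lemma DF.hw {f : X → ℕ} (hf : DF f) : DF (fun x => hw (f x)) := by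
  have hc : DF (fun x => (f x + f x).choose (f x)) :=
    DF.congr (by fun_prop) fun x => (choose_eq (f x)).symm
  refine DF.of_graph (p := fun x v => (f x + f x).choose (f x) % 2 ^ v = 0 ∧
    (f x + f x).choose (f x) % 2 ^ (v + 1) ≠ 0) ?_ ?_
  · have hc' : DF (fun z : X × ℕ => (f z.1 + f z.1).choose (f z.1)) := hc.comp (by fun_prop)
    exact (DP.eq (hc'.mod (by fun_prop)) (by fun_prop)).and
      (DP.ne (hc'.mod (by fun_prop)) (by fun_prop))
  · intro x v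
    generalize f x = n
    have h0 : (n + n).choose n ≠ 0 := (Nat.choose_pos (by omega)).ne'
    have h1 := sub_one_mul_padicValNat_choose_eq_sub_sum_digits' (p := 2) (k := n) (n := n)
    have h2 := hw_step n 0 (by norm_num)
    rw [zero_add, two_mul] at h2
    unfold Vale.Agent.P345.hw at h2 ⊢
    rw [Ne, ← Nat.dvd_iff_mod_eq_zero, ← Nat.dvd_iff_mod_eq_zero, padicValNat_dvd_iff_le h0,
      padicValNat_dvd_iff_le h0]
    omega

end Vale.Agent.P345
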