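import Mathlib

/-! Single-fold Diophantine predicates and functions: closure library. -/

namespace Vale.Agent.P345

open MvPolynomial

/-- A type that is a finite power of the natural numbers. -/
class Ctx (X : Type) where
  ι : Type
  fin : Fintype ι
  co : X ≃ (ι → ℕ)

attribute [instance_reducible, instance] Ctx.fin

instance : Ctx ℕ := ⟨Unit, inferInstance, (Equiv.funUnique Unit ℕ).symm⟩

instance (X Y : Type) [Ctx X] [Ctx Y] : Ctx (X × Y) :=
  ⟨Ctx.ι X ⊕ Ctx.ι Y, inferInstance,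
    (Equiv.prodCongr Ctx.co Ctx.co).trans (Equiv.sumArrowEquivProdArrow _ _ _).symm⟩

instance (m : ℕ) : Ctx (Fin m → ℕ) := ⟨Fin m, inferInstance, Equiv.refl _⟩

variable {X Y Z : Type} [Ctx X] [Ctx Y] [Ctx Z]

@[simp] lemma co_nat (n : ℕ) (i : Ctx.ι ℕ) : Ctx.co n i = n := rfl
@[simp] lemma co_inl (p : X × Y) (i : Ctx.ι X) :
    Ctx.co p (show Ctx.ι (X × Y) from Sum.inl i) = Ctx.co p.1 i := rfl
@[simp] lemma co_inr (p : X × Y) (i : Ctx.ι Y) :
    Ctx.co p (show Ctx.ι (X × Y) from Sum.inr i) = Ctx.co p.2 i := rfl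

/-- Integer polynomial functions. -/
def IsP (q : X → ℤ) : Prop :=
  ∃ P : MvPolynomial (Ctx.ι X) ℤ, ∀ x, q x = eval (fun i => (Ctx.co x i : ℤ)) P

lemma IsP.const (c : ℤ) : IsP (fun _ : X => c) := ⟨C c, by simp⟩
lemma IsP.add {p q : X → ℤ} (hp : IsP p) (hq : IsP q) : IsP (fun x => p x + q x) := by
  obtain ⟨P, hP⟩ := hp; obtain ⟨Q, hQ⟩ := hq; exact ⟨P + Q, by simp [hP, hQ]⟩
lemma IsP.sub {p q : X → ℤ} (hp : IsP p) (hq : IsP q) : IsP (fun x => p x - q x) := by
  obtain ⟨P, hP⟩ := hp; obtain ⟨Q, hQ⟩ := hq; exact ⟨P - Q, by simp [hP, hQ]⟩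
lemma IsP.mul {p q : X → ℤ} (hp : IsP p) (hq : IsP q) : IsP (fun x => p x * q x) := by
  obtain ⟨P, hP⟩ := hp; obtain ⟨Q, hQ⟩ := hq; exact ⟨P * Q, by simp [hP, hQ]⟩
lemma IsP.co (i : Ctx.ι X) : IsP (fun x : X => (Ctx.co x i : ℤ)) := ⟨MvPolynomial.X i, by simp⟩
lemma IsP.sum {κ : Type} (s : Finset κ) {q : κ → X → ℤ} (h : ∀ k, IsP (q k)) :
    IsP (fun x => ∑ k ∈ s, q k x) := by
  classical
  induction s using Finset.induction_on with
  | empty => simpa using IsP.const 0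
  | insert a s ha ih => simpa [Finset.sum_insert ha] using (h a).add ih

/-- Polynomial maps. -/
@[fun_prop] def PM (f : X → Y) : Prop := ∀ j, IsP (fun x => (Ctx.co (f x) j : ℤ))

lemma IsP.comp {q : Y → ℤ} {f : X → Y} (hq : IsP q) (hf : PM f) : IsP (fun x => q (f x)) := by
  obtain ⟨P, hP⟩ := hq
  simp only [hP]
  clear hP
  induction P using MvPolynomial.induction_on with
  | C a => simpa using IsP.const a
  | add p q hp hq => simpa using hp.add hq
  | mul_X p n hp => simpa using hp.mul (hf n)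

@[fun_prop] lemma PM.id : PM (fun x : X => x) := fun j => IsP.co j
@[fun_prop] lemma PM.const (y : Y) : PM (fun _ : X => y) := fun _ => IsP.const _
@[fun_prop] lemma PM.comp {f : Y → Z} {g : X → Y} (hf : PM f) (hg : PM g) :
    PM (fun x => f (g x)) := fun j => (hf j).comp hg
@[fun_prop] lemma PM.fst {f : X → Y × Z} (hf : PM f) : PM (fun x => (f x).1) :=
  fun j => hf (Sum.inl j)
@[fun_prop] lemma PM.snd {f : X → Y × Z} (hf : PM f) : PM (fun x => (f x).2) :=
  fun j => hf (Sum.inr j)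
@[fun_prop] lemma PM.mk {f : X → Y} {g : X → Z} (hf : PM f) (hg : PM g) :
    PM (fun x => (f x, g x)) := by
  rintro (j | j)
  · exact hf j
  · exact hg j
@[fun_prop] lemma PM.add {f g : X → ℕ} (hf : PM f) (hg : PM g) : PM (fun x => f x + g x) :=
  fun j => by simpa using (hf j).add (hg j)
@[fun_prop] lemma PM.mul {f g : X → ℕ} (hf : PM f) (hg : PM g) : PM (fun x => f x * g x) :=
  fun j => by simpa using (hf j).mul (hg j)
lemma PM.co (i : Ctx.ι X) : PM (fun x : X => Ctx.co x i) := fun _ => IsP.co i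

/-- Single-fold Diophantine predicates. -/
@[fun_prop] def DP (p : X → Prop) : Prop :=
  ∃ (W : Type) (_ : Ctx W) (q : X × W → ℤ), IsP q ∧ (∀ x, p x ↔ ∃ w, q (x, w) = 0) ∧
    ∀ x w w', q (x, w) = 0 → q (x, w') = 0 → w = w'

lemma DP.congr {p q : X → Prop} (hp : DP p) (h : ∀ x, p x ↔ q x) : DP q := by
  have : p = q := funext fun x => propext (h x)
  exact this ▸ hp

lemma DP.poly {q : X → ℤ} (hq : IsP q) : DP (fun x => q x = 0) :=
  ⟨Fin 0 → ℕ, inferInstance, fun y => q y.1, hq.comp (by fun_prop), by simp,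
    fun _ _ _ _ _ => Subsingleton.elim _ _⟩

lemma DP.pm {p : Y → Prop} {f : X → Y} (hp : DP p) (hf : PM f) : DP (fun x => p (f x)) := by
  obtain ⟨W, _, q, hq, h1, h2⟩ := hp
  exact ⟨W, inferInstance, fun y => q (f y.1, y.2), hq.comp (by fun_prop), fun x => h1 _,
    fun x => h2 (f x)⟩

@[fun_prop] lemma DP.and {p p' : X → Prop} (hp : DP p) (hp' : DP p') :
    DP (fun x => p x ∧ p' x) := by
  obtain ⟨W, _, q, hq, h1, h2⟩ := hp
  obtain ⟨W', _, q', hq', h1', h2'⟩ := hp'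
  have hA : IsP (fun y : X × (W × W') => q (y.1, y.2.1)) := hq.comp (by fun_prop)
  have hB : IsP (fun y : X × (W × W') => q' (y.1, y.2.2)) := hq'.comp (by fun_prop)
  refine ⟨W × W', inferInstance, _, (hA.mul hA).add (hB.mul hB), fun x => ?_, ?_⟩
  · simp only [mul_self_add_mul_self_eq_zero, h1, h1', Prod.exists]
    constructor
    · rintro ⟨⟨w, hw⟩, w', hw'⟩; exact ⟨w, w', hw, hw'⟩
    · rintro ⟨w, w', hw, hw'⟩; exact ⟨⟨w, hw⟩, w', hw'⟩
  · simp only [mul_self_add_mul_self_eq_zero]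
    rintro x ⟨a, b⟩ ⟨c, d⟩ ⟨h3, h4⟩ ⟨h5, h6⟩
    rw [h2 x a c h3 h5, h2' x b d h4 h6]

lemma DP.ex1 {p : X → Y → Prop} (hp : DP (fun z : X × Y => p z.1 z.2))
    (hu : ∀ x y y', p x y → p x y' → y = y') : DP (fun x => ∃ y, p x y) := by
  obtain ⟨W, _, q, hq, h1, h2⟩ := hp
  refine ⟨Y × W, inferInstance, fun y => q ((y.1, y.2.1), y.2.2), hq.comp (by fun_prop),
    fun x => ?_, ?_⟩
  · simp only [Prod.exists]
    exact exists_congr fun y => h1 (x, y)
  · rintro x ⟨a, b⟩ ⟨c, d⟩ h3 h4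
    have : a = c := hu x a c ((h1 (x, a)).2 ⟨b, h3⟩) ((h1 (x, c)).2 ⟨d, h4⟩)
    subst this
    rw [h2 (x, a) b d h3 h4]

lemma DP.eqPM {f g : X → Y} (hf : PM f) (hg : PM g) : DP (fun x => f x = g x) := by
  have h : IsP (fun x => ∑ j, ((Ctx.co (f x) j : ℤ) - Ctx.co (g x) j) *
      ((Ctx.co (f x) j : ℤ) - Ctx.co (g x) j)) :=
    IsP.sum _ fun j => ((hf j).sub (hg j)).mul ((hf j).sub (hg j))
  refine (DP.poly h).congr fun x => ?_
  rw [Finset.sum_eq_zero_iff_of_nonneg (fun _ _ => mul_self_nonneg _)]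
  simp only [Finset.mem_univ, mul_self_eq_zero, sub_eq_zero, Nat.cast_inj, forall_const]
  exact ⟨fun h => Ctx.co.injective (funext h), fun h j => by rw [h]⟩

/-- Functions with a single-fold Diophantine graph. -/
@[fun_prop] def DF (f : X → Y) : Prop := DP (fun z : X × Y => f z.1 = z.2)

lemma PM.df {f : X → Y} (hf : PM f) : DF f := DP.eqPM (by fun_prop) (by fun_prop)

@[fun_prop] lemma DP.comp {p : Y → Prop} {f : X → Y} (hp : DP p) (hf : DF f) :
    DP (fun x => p (f x)) := by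
  have h : DP (fun z : X × Y => f z.1 = z.2 ∧ p z.2) := DP.and hf (hp.pm (by fun_prop))
  refine (DP.ex1 (p := fun x y => f x = y ∧ p y) h ?_).congr fun x => by simp
  rintro x y y' ⟨rfl, _⟩ ⟨rfl, _⟩; rfl

@[fun_prop] lemma DF.id : DF (fun x : X => x) := PM.df (by fun_prop)
@[fun_prop] lemma DF.const (y : Y) : DF (fun _ : X => y) := PM.df (by fun_prop)
@[fun_prop] lemma DF.comp {f : Y → Z} {g : X → Y} (hf : DF f) (hg : DF g) :
    DF (fun x => f (g x)) := by
  have h1 : DP (fun z : (X × Z) × Y => g z.1.1 = z.2) :=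
    DP.pm (p := fun z : X × Y => g z.1 = z.2) (f := fun z : (X × Z) × Y => (z.1.1, z.2)) hg
      (by fun_prop)
  have h2 : DP (fun z : (X × Z) × Y => f z.2 = z.1.2) :=
    DP.pm (p := fun z : Y × Z => f z.1 = z.2) (f := fun z : (X × Z) × Y => (z.2, z.1.2)) hf
      (by fun_prop)
  refine (DP.ex1 (p := fun (x : X × Z) y => g x.1 = y ∧ f y = x.2) (h1.and h2) ?_).congr
    fun x => by simp
  rintro x y y' ⟨rfl, _⟩ ⟨rfl, _⟩; rfl

@[fun_prop] lemma DF.fst {f : X → Y × Z} (hf : DF f) : DF (fun x => (f x).1) :=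
  DF.comp (f := fun p : Y × Z => p.1) (PM.df (by fun_prop)) hf
@[fun_prop] lemma DF.snd {f : X → Y × Z} (hf : DF f) : DF (fun x => (f x).2) :=
  DF.comp (f := fun p : Y × Z => p.2) (PM.df (by fun_prop)) hf
@[fun_prop] lemma DF.mk {f : X → Y} {g : X → Z} (hf : DF f) (hg : DF g) :
    DF (fun x => (f x, g x)) := by
  have h1 : DP (fun z : X × (Y × Z) => f z.1 = z.2.1) :=
    DP.pm (p := fun z : X × Y => f z.1 = z.2) (f := fun z : X × (Y × Z) => (z.1, z.2.1)) hf
      (by fun_prop)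
  have h2 : DP (fun z : X × (Y × Z) => g z.1 = z.2.2) :=
    DP.pm (p := fun z : X × Z => g z.1 = z.2) (f := fun z : X × (Y × Z) => (z.1, z.2.2)) hg
      (by fun_prop)
  exact (h1.and h2).congr fun x => by simp [Prod.ext_iff]

@[fun_prop] lemma DP.eq {f g : X → Y} (hf : DF f) (hg : DF g) : DP (fun x => f x = g x) :=
  DP.comp (p := fun z : Y × Y => z.1 = z.2) (f := fun x => (f x, g x))
    (DP.eqPM (by fun_prop) (by fun_prop)) (hf.mk hg)

@[fun_prop] lemma DF.add {f g : X → ℕ} (hf : DF f) (hg : DF g) : DF (fun x => f x + g x) :=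
  DF.comp (f := fun z : ℕ × ℕ => z.1 + z.2) (PM.df (by fun_prop)) (hf.mk hg)
@[fun_prop] lemma DF.mul {f g : X → ℕ} (hf : DF f) (hg : DF g) : DF (fun x => f x * g x) :=
  DF.comp (f := fun z : ℕ × ℕ => z.1 * z.2) (PM.df (by fun_prop)) (hf.mk hg)

lemma DF.congr {f g : X → Y} (hf : DF f) (h : ∀ x, f x = g x) : DF g := by
  have : f = g := funext h
  exact this ▸ hf

lemma DF.of_graph {f : X → Y} {p : X → Y → Prop} (hp : DP (fun z : X × Y => p z.1 z.2))
    (h : ∀ x y, p x y ↔ f x = y) : DF f := hp.congr fun z => h z.1 z.2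

@[fun_prop] lemma DP.le {f g : X → ℕ} (hf : DF f) (hg : DF g) : DP (fun x => f x ≤ g x) := by
  refine (DP.ex1 (p := fun x (d : ℕ) => f x + d = g x) (by fun_prop) ?_).congr fun x =>
    ⟨fun ⟨d, h⟩ => by omega, fun h => ⟨g x - f x, by omega⟩⟩
  intro x y y' h h'; omega

@[fun_prop] lemma DP.lt {f g : X → ℕ} (hf : DF f) (hg : DF g) : DP (fun x => f x < g x) :=
  DP.le (f := fun x => f x + 1) (by fun_prop) hg

@[fun_prop] lemma DF.sub {f g : X → ℕ} (hf : DF f) (hg : DF g) : DF (fun x => f x - g x) := by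
  refine DF.of_graph (p := fun x c => ∃ d : ℕ, f x + d = g x + c ∧ c * d = 0) ?_ ?_
  · refine DP.ex1 (p := fun (z : X × ℕ) d => f z.1 + d = g z.1 + z.2 ∧ z.2 * d = 0)
      (by fun_prop) ?_
    intro x y y' h h'; omega
  · intro x c
    simp only [mul_eq_zero]
    exact ⟨fun ⟨d, h, h'⟩ => by omega, fun h => ⟨g x - f x, by omega, by omega⟩⟩

@[fun_prop] lemma DP.ne {f g : X → ℕ} (hf : DF f) (hg : DF g) : DP (fun x => f x ≠ g x) :=
  (DP.lt (f := fun _ => 0) (g := fun x => (f x - g x) + (g x - f x)) (by fun_prop)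
    (by fun_prop)).congr fun x => by omega

@[fun_prop] lemma DF.div {f g : X → ℕ} (hf : DF f) (hg : DF g) : DF (fun x => f x / g x) := by
  refine DF.of_graph (p := fun x q => g x * q ≤ f x ∧ f x < g x * q + g x + (1 - g x) * (f x + 1)
    ∧ q * (1 - g x) = 0) (by fun_prop) ?_
  intro x q
  generalize f x = a
  generalize g x = b
  rcases Nat.eq_zero_or_pos b with rfl | hb
  · simp [eq_comm]
  · have : 1 - b = 0 := by omega
    rw [this, Nat.div_eq_iff hb]
    simp only [zero_mul, add_zero, mul_zero, and_true, mul_comm q b]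
    omega

@[fun_prop] lemma DF.mod {f g : X → ℕ} (hf : DF f) (hg : DF g) : DF (fun x => f x % g x) :=
  (show DF (fun x => f x - g x * (f x / g x)) by fun_prop).congr fun x => (Nat.mod_def _ _).symm

lemma DF.powc {f : X → ℕ} (hf : DF f) (k : ℕ) : DF (fun x => f x ^ k) := by
  induction k with
  | zero => simpa using DF.const 1
  | succ k ih => simpa [pow_succ] using ih.mul hf

lemma DF.sum {κ : Type} (s : Finset κ) {q : κ → X → ℕ} (h : ∀ k ∈ s, DF (q k)) :
    DF (fun x => ∑ k ∈ s, q k x) := by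
  classical
  induction s using Finset.induction_on with
  | empty => simpa using DF.const 0
  | insert a s ha ih =>
    simpa [Finset.sum_insert ha] using (h a (by simp)).add (ih fun k hk => h k (by simp [hk]))

lemma DF.prod {κ : Type} (s : Finset κ) {q : κ → X → ℕ} (h : ∀ k ∈ s, DF (q k)) :
    DF (fun x => ∏ k ∈ s, q k x) := by
  classical
  induction s using Finset.induction_on with
  | empty => simpa using DF.const 1
  | insert a s ha ih =>
    simpa [Finset.prod_insert ha] using (h a (by simp)).mul (ih fun k hk => h k (by simp [hk]))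

lemma DP.coprime {f g : X → ℕ} (hf : DF f) (hg : DF g) :
    DP (fun x => 0 < g x ∧ Nat.Coprime (f x) (g x)) := by
  have key : ∀ a e u : ℕ, a * u % e = 1 % e → Nat.Coprime a e := by
    intro a e u h
    have : Nat.Coprime (a * u) e := by
      rw [Nat.Coprime, Nat.gcd_comm, Nat.gcd_rec, Nat.gcd_comm, Nat.gcd_rec, Nat.gcd_comm]
      have h2 : (a * u).gcd e = (1 : ℕ).gcd e := Nat.ModEq.gcd_eq h
      rw [← Nat.gcd_comm, ← Nat.gcd_rec, Nat.gcd_comm, ← Nat.gcd_rec, Nat.gcd_comm, h2]; simp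
    exact Nat.Coprime.coprime_mul_right this
  refine (DP.ex1 (p := fun x (u : ℕ) => u < g x ∧ f x * u % g x = 1 % g x) (by fun_prop) ?_).congr
    fun x => ⟨fun ⟨u, h, h'⟩ => ⟨by omega, key _ _ _ h'⟩, fun ⟨h, h'⟩ => ?_⟩
  · rintro x u u' ⟨h1, h2⟩ ⟨h3, h4⟩
    have hc := key _ _ _ h2
    have : u ≡ u' [MOD g x] := Nat.ModEq.cancel_left_of_coprime hc.symm (h2.trans h4.symm)
    exact Nat.ModEq.eq_of_lt_of_lt this h1 h3
  · obtain ⟨m, hm⟩ := Nat.exists_mul_mod_eq_of_coprime 1 h' h.ne'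
    exact ⟨m, hm.1, hm.2⟩

end Vale.Agent.P345
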