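import Vale.Agent.P345.Curve
import Vale.Agent.P345.SF

/-! A single-fold Diophantine function of quasi-polynomial growth. -/

namespace Vale.Agent.P345

noncomputable def XX (n : ℕ) : ℚ := xx ((n + 1) • PP)

lemma XX_zero : XX 0 = 2 := by simp [XX]

lemma XX_one : XX 1 = 9 / 4 := by
  have := (dbl (x := 2) (y := 2) ((ns_iff _ _).2 (by norm_num)) (by norm_num)).1
  have h : XX 1 = xx (PP + PP) := by simp [XX, two_nsmul]
  rw [h, PP]
  linear_combination this / 16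

lemma XX_step {n : ℕ} (h : 0 < XX (n + 1)) (h2 : XX (n + 1) ≠ 2) :
    0 < XX (n + 2) ∧ 0 < XX n ∧
    (XX (n + 2) + XX n) * (XX (n + 1) - 2) ^ 2 = 4 * (XX (n + 1) + 2) * (XX (n + 1) - 1) ∧
    XX (n + 2) * XX n * (XX (n + 1) - 2) ^ 2 = 4 * (XX (n + 1) + 1) ^ 2 ∧
    (XX (n + 1)).num ^ 2 < (XX (n + 2)).num * (XX n).num ∧
      (XX (n + 2)).num * (XX n).num ≤ 16 * (XX (n + 1)).num ^ 2 := by
  obtain ⟨p3, p4, e1, e2, -, -⟩ := step h h2
  have h3 : (n + 1 + 1) • PP + PP = (n + 2 + 1) • PP := (succ_nsmul _ _).symm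
  have h4 : (n + 1 + 1) • PP - PP = (n + 1) • PP := by rw [succ_nsmul _ (n + 1)]; simp
  have h5 := height_step (one_lt_xx h) h2 p3 p4 e1 e2
  rw [h3] at p3
  rw [h4] at p4
  rw [h3, h4] at e1 e2 h5
  exact ⟨p3, p4, e1, e2, h5⟩

lemma XX_ind (n : ℕ) : 0 < XX n ∧ (XX n).num < (XX (n + 1)).num := by
  induction n with
  | zero => rw [XX_zero, XX_one]; norm_num
  | succ n ih =>
    have h1 : 2 ≤ (XX n).num := (two_le_num ih.1).1
    have h2 : 0 < XX (n + 1) := Rat.num_pos.1 (by omega)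
    have h3 : XX (n + 1) ≠ 2 := by
      intro h; rw [h] at ih; norm_num at ih; omega
    have h4 := (XX_step h2 h3).2.2.2.2.1
    refine ⟨h2, ?_⟩
    by_contra hn
    nlinarith [ih.2]

lemma XX_ne_two (n : ℕ) : XX (n + 1) ≠ 2 := by
  have ih := XX_ind n
  have h1 : 2 ≤ (XX n).num := (two_le_num ih.1).1
  intro h; rw [h] at ih; norm_num at ih; omega

noncomputable def BB (n : ℕ) : ℕ := (XX n).num.toNat

lemma BB_cast (n : ℕ) : (BB n : ℤ) = (XX n).num :=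
  Int.toNat_of_nonneg (Rat.num_pos.2 (XX_ind n).1).le

lemma BB_zero : BB 0 = 2 := by simp [BB, XX_zero]
lemma BB_one : BB 1 = 9 := by rw [BB, XX_one]; norm_num; rfl

lemma BB_mono : StrictMono BB := strictMono_nat_of_lt_succ fun n => by
  have := (XX_ind n).2
  rw [← BB_cast, ← BB_cast] at this
  exact_mod_cast this

lemma BB_pos (n : ℕ) : 0 < BB n := by
  have := BB_mono.monotone (Nat.zero_le n)
  rw [BB_zero] at this; omega

lemma BB_step (n : ℕ) : BB (n + 1) ^ 2 < BB (n + 2) * BB n ∧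
    BB (n + 2) * BB n ≤ 16 * BB (n + 1) ^ 2 := by
  have := (XX_step (XX_ind (n + 1)).1 (XX_ne_two n)).2.2.2.2
  simp only [← BB_cast] at this
  exact_mod_cast this

lemma BB_dbl (n : ℕ) : BB n ^ 4 ≤ 4 * BB (2 * n + 1) := by
  have := (dbl_height (Q := (n + 1) • PP) (XX_ind n).1).2
  rw [← add_nsmul, show n + 1 + (n + 1) = 2 * n + 1 + 1 by ring] at this
  change (XX n).num ^ 4 ≤ 4 * (XX (2 * n + 1)).num at this
  simp only [← BB_cast] at this
  exact_mod_cast this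

lemma BB_pow (i : ℕ) : 4 * 2 ^ 4 ^ i ≤ BB (2 ^ i - 1) ^ 3 := by
  induction i with
  | zero => simp [BB_zero]
  | succ i ih =>
    have h := BB_dbl (2 ^ i - 1)
    have : 2 * (2 ^ i - 1) + 1 = 2 ^ (i + 1) - 1 := by
      have := Nat.one_le_two_pow (n := i)
      rw [pow_succ]; omega
    rw [this] at h
    have h1 : (4 * 2 ^ 4 ^ i) ^ 4 ≤ (BB (2 ^ i - 1) ^ 3) ^ 4 := by gcongr
    have h2 : (BB (2 ^ i - 1) ^ 4) ^ 3 ≤ (4 * BB (2 ^ (i + 1) - 1)) ^ 3 := by gcongr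
    rw [pow_succ 4 i, pow_mul]
    generalize 2 ^ 4 ^ i = u at *
    nlinarith

lemma BB_lower (n : ℕ) : 2 ^ (n + 1) ^ 2 ≤ BB n ^ 12 := by
  set i := Nat.log 2 (n + 1)
  have h1 : 2 ^ i ≤ n + 1 := Nat.pow_log_le_self 2 (by omega)
  have h2 : n + 1 < 2 ^ (i + 1) := Nat.lt_pow_succ_log_self (by norm_num) _
  have h3 : BB (2 ^ i - 1) ≤ BB n := BB_mono.monotone (by omega)
  have h4 := BB_pow i
  calc 2 ^ (n + 1) ^ 2 ≤ 2 ^ (2 ^ (i + 1)) ^ 2 := by gcongr; norm_num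
    _ = (2 ^ 4 ^ i) ^ 4 := by
      rw [← pow_mul, ← pow_mul, mul_comm (i + 1), pow_mul, ← pow_succ]; norm_num
    _ ≤ (BB (2 ^ i - 1) ^ 3) ^ 4 := Nat.pow_le_pow_left (by omega) _
    _ ≤ (BB n ^ 3) ^ 4 := by gcongr
    _ = _ := by ring

lemma BB_ratio (n : ℕ) : BB (n + 1) ≤ 16 ^ (n + 1) * BB n := by
  induction n with
  | zero => simp [BB_zero, BB_one]
  | succ n ih =>
    have := (BB_step n).2
    apply Nat.le_of_mul_le_mul_right _ (BB_pos n)
    calc _ ≤ 16 * BB (n + 1) * BB (n + 1) := by nlinarith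
      _ ≤ 16 * BB (n + 1) * (16 ^ (n + 1) * BB n) := by gcongr
      _ = _ := by ring

lemma BB_persist {c n : ℕ} (h : c * BB n < BB (n + 1)) {m : ℕ} (hm : n ≤ m) :
    c * BB m < BB (m + 1) := by
  induction hm with
  | refl => exact h
  | @step m _ ih =>
    have := (BB_step m).1
    apply Nat.lt_of_mul_lt_mul_right (a := BB m)
    have := BB_pos (m + 1)
    change c * BB (m + 1) * BB m < BB (m + 2) * BB m
    nlinarith

lemma BB_upper {c n : ℕ} (hc : 2 ≤ c) (h : BB (n + 1) ≤ c * BB n) : BB (n + 1) ≤ c ^ (n + 2) := by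
  have : ∀ m ≤ n + 1, BB m ≤ c ^ (m + 1) := by
    intro m hm
    induction m with
    | zero => simpa [BB_zero] using hc
    | succ m ih =>
      have h1 : BB (m + 1) ≤ c * BB m := by
        by_contra hn
        have := BB_persist (not_le.1 hn) (show m ≤ n by omega)
        omega
      calc _ ≤ c * BB m := h1
        _ ≤ c * c ^ (m + 1) := by gcongr; exact ih (by omega)
        _ = _ := by ring
  exact this _ le_rfl

lemma BB_bound {c n l : ℕ} (hc : 2 ≤ c) (h : BB (n + 1) ≤ c * BB n) (hl : c ≤ 2 ^ l) :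
    n + 2 ≤ 12 * l := by
  have h1 := BB_lower (n + 1)
  have h2 := BB_upper hc h
  have : 2 ^ (n + 2) ^ 2 ≤ 2 ^ ((12 * l) * (n + 2)) :=
    calc _ ≤ _ := h1
      _ ≤ ((2 ^ l) ^ (n + 2)) ^ 12 := by gcongr; exact h2.trans (by gcongr)
      _ = _ := by rw [← pow_mul, ← pow_mul]; congr 1; ring
  have := (Nat.pow_le_pow_iff_right (by norm_num)).1 this
  rw [sq] at this
  exact Nat.le_of_mul_le_mul_right this (by omega)

lemma ex_NN (z : ℕ) : ∃ n, BB (n + 1) ≤ (z + 5) * BB n ∧ (z + 5) * BB (n + 1) < BB (n + 2) := by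
  have hex : ∃ n, (z + 5) * BB (n + 1) < BB (n + 2) := by
    by_contra hn
    push Not at hn
    have := BB_bound (by omega) (hn (12 * (z + 5))) (Nat.lt_two_pow_self).le
    omega
  classical
  refine ⟨Nat.find hex, ?_, Nat.find_spec hex⟩
  rcases h : Nat.find hex with _ | m
  · simp [BB_zero, BB_one]; omega
  · exact not_lt.1 (Nat.find_min hex (by omega))

noncomputable def NN (z : ℕ) : ℕ := (ex_NN z).choose

lemma NN_spec (z : ℕ) : BB (NN z + 1) ≤ (z + 5) * BB (NN z) ∧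
    (z + 5) * BB (NN z + 1) < BB (NN z + 2) := (ex_NN z).choose_spec

lemma NN_unique {z n : ℕ} (h1 : BB (n + 1) ≤ (z + 5) * BB n)
    (h2 : (z + 5) * BB (n + 1) < BB (n + 2)) : n = NN z := by
  have := NN_spec z
  rcases lt_trichotomy n (NN z) with h | h | h
  · have := BB_persist h2 (show n + 1 ≤ NN z from h); omega
  · exact h
  · have := BB_persist this.2 (show NN z + 1 ≤ n from h); omega

lemma rep_eq {a e n : ℕ} (h : 0 < e ∧ Nat.Coprime a e) (hx : (a : ℚ) / e = XX n) :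
    a = BB n ∧ e = (XX n).den := by
  have h1 := Rat.num_div_eq_of_coprime (a := a) (b := e) (by exact_mod_cast h.1) (by simpa using h.2)
  have h2 := Rat.den_div_eq_of_coprime (a := a) (b := e) (by exact_mod_cast h.1) (by simpa using h.2)
  simp only [Int.cast_natCast] at h1 h2
  rw [hx] at h1 h2
  exact ⟨by rw [BB, h1]; simp, by exact_mod_cast h2.symm⟩

lemma rep_XX (n : ℕ) : (0 < (XX n).den ∧ Nat.Coprime (BB n) (XX n).den) ∧
    (BB n : ℚ) = XX n * (XX n).den := by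
  refine ⟨⟨(XX n).den_pos, ?_⟩, ?_⟩
  · have := (XX n).reduced
    rwa [← BB_cast, Int.natAbs_natCast] at this
  · rw [← rat_num, ← BB_cast]; simp

def Quad (a e A E : ℕ) : Prop :=
  (a * a + 4 * (e * e)) * (A * A) + 4 * ((a + e) * (a + e)) * (E * E) + 4 * (a + 2 * e) * e * (A * E)
    = 4 * (a * e) * (A * A) + 4 * (a + 2 * e) * a * (A * E)

lemma quad_iff (n A E : ℕ) (hE : 0 < E) : Quad (BB (n + 1)) (XX (n + 1)).den A E ↔
    (A : ℚ) / E = XX (n + 2) ∨ (A : ℚ) / E = XX n := by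
  obtain ⟨-, -, hs, hp, -⟩ := XX_step (XX_ind (n + 1)).1 (XX_ne_two n)
  have h2 : XX (n + 1) - 2 ≠ 0 := sub_ne_zero.2 (XX_ne_two n)
  have he : ((XX (n + 1)).den : ℚ) ≠ 0 := by exact_mod_cast (XX (n + 1)).den_nz
  have hE' : (E : ℚ) ≠ 0 := by exact_mod_cast hE.ne'
  rw [Quad, ← Nat.cast_inj (R := ℚ), ← sub_eq_zero,
    ← sub_eq_zero (a := (A : ℚ) / E) (b := XX (n + 2)),
    ← sub_eq_zero (a := (A : ℚ) / E) (b := XX n), ← mul_eq_zero,
    ← mul_eq_zero_iff_left (b := (_ - XX (n + 2)) * _)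
      (pow_ne_zero 2 (mul_ne_zero (mul_ne_zero h2 he) hE'))]
  push_cast
  rw [(rep_XX (n + 1)).2]
  apply Eq.congr_left
  field_simp
  linear_combination (A * E : ℚ) * hs - (E : ℚ) ^ 2 * hp

def Rel (z a e a1 e1 a2 e2 Y : ℕ) : Prop :=
  (0 < e ∧ Nat.Coprime a e) ∧ (0 < e1 ∧ Nat.Coprime a1 e1) ∧ (0 < e2 ∧ Nat.Coprime a2 e2) ∧
  a * a * a * e = Y * Y + 2 * a * (e * e * e) ∧ 2 < a ∧ Quad a e a1 e1 ∧ Quad a e a2 e2 ∧ a1 < a ∧
  a ≤ (z + 5) * a1 ∧ (z + 5) * a < a2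

lemma Rel.det {z a e a1 e1 a2 e2 Y : ℕ} (h : Rel z a e a1 e1 a2 e2 Y) :
    a = BB (NN z + 1) ∧ e = (XX (NN z + 1)).den ∧ a1 = BB (NN z) ∧ e1 = (XX (NN z)).den ∧
      a2 = BB (NN z + 2) ∧ e2 = (XX (NN z + 2)).den := by
  obtain ⟨h0, h1, h2, hc, ha, q1, q2, l1, l2, l3⟩ := h
  have he : (e : ℚ) ≠ 0 := by exact_mod_cast h0.1.ne'
  obtain ⟨Q, hQ⟩ := ex_point (x := (a : ℚ) / e) (y := Y / e ^ 2) (by
    have : ((a * a * a * e : ℕ) : ℚ) = (Y * Y + 2 * a * (e * e * e) : ℕ) := by rw [hc]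
    push_cast at this
    field_simp
    linear_combination -this)
  have hp : 0 < xx Q := by
    rw [hQ]; exact div_pos (by exact_mod_cast (by omega : 0 < a)) (by exact_mod_cast h0.1)
  obtain ⟨k, rfl⟩ := descent Q hp
  obtain ⟨n, hn⟩ : ∃ n, xx (k • PP) = XX n := by
    obtain ⟨m, rfl | rfl⟩ := Int.eq_nat_or_neg k <;> rcases m with _ | m
    · simp at hp
    · exact ⟨m, by rw [natCast_zsmul, XX]⟩
    · simp at hp
    · exact ⟨m, by rw [neg_zsmul, xx_neg, natCast_zsmul, XX]⟩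
  obtain ⟨rfl, rfl⟩ := rep_eq h0 (hQ.symm.trans hn)
  rcases n with _ | n
  · simp [BB_zero] at ha
  have m1 := BB_mono (show n + 1 < n + 2 by omega)
  have m2 := BB_mono (show n < n + 1 by omega)
  rcases (quad_iff _ _ _ h1.1).1 q1 with r1 | r1
  · have := (rep_eq h1 r1).1; omega
  rcases (quad_iff _ _ _ h2.1).1 q2 with r2 | r2
  swap
  · have := (rep_eq h2 r2).1; nlinarith
  obtain ⟨rfl, rfl⟩ := rep_eq h1 r1
  obtain ⟨rfl, rfl⟩ := rep_eq h2 r2
  rw [← NN_unique l2 l3]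
  simp

lemma Rel.ex (z : ℕ) : ∃ Y, Rel z (BB (NN z + 1)) (XX (NN z + 1)).den (BB (NN z)) (XX (NN z)).den
    (BB (NN z + 2)) (XX (NN z + 2)).den Y := by
  have hs := NN_spec z
  generalize NN z = n at *
  obtain ⟨y, hy⟩ := on_curve (Q := (n + 1 + 1) • PP) (XX_ind (n + 1)).1
  change y ^ 2 = XX (n + 1) ^ 3 - 2 * XX (n + 1) at hy
  obtain ⟨m, hm⟩ : IsSquare ((BB (n + 1) : ℤ) ^ 3 * (XX (n + 1)).den -
      2 * BB (n + 1) * (XX (n + 1)).den ^ 3) := by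
    rw [← Rat.isSquare_intCast_iff]
    refine ⟨y * (XX (n + 1)).den ^ 2, ?_⟩
    push_cast; rw [(rep_XX _).2]
    linear_combination (-((XX (n + 1)).den : ℚ) ^ 4) * hy
  have hd : ∀ k, (BB k : ℚ) / (XX k).den = XX k := fun k => by
    rw [(rep_XX k).2, mul_div_cancel_right₀]; exact_mod_cast (XX k).den_nz
  refine ⟨m.natAbs, (rep_XX _).1, (rep_XX _).1, (rep_XX _).1, ?_, ?_,
    (quad_iff _ _ _ (XX _).den_pos).2 (Or.inr (hd _)),
    (quad_iff _ _ _ (XX _).den_pos).2 (Or.inl (hd _)), BB_mono (by omega), hs.1, hs.2⟩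
  · zify
    rw [abs_mul_abs_self]
    linear_combination hm
  · rw [← BB_zero]; exact BB_mono (by omega)

lemma df_mid : DF (fun z => BB (NN z + 1)) := by
  refine DF.of_graph (p := fun z a => ∃ w : ℕ × ℕ × ℕ × ℕ × ℕ × ℕ,
    Rel z a w.1 w.2.1 w.2.2.1 w.2.2.2.1 w.2.2.2.2.1 w.2.2.2.2.2) (DP.ex1 ?_ ?_) ?_
  · unfold Rel Quad
    refine (DP.coprime (by fun_prop) (by fun_prop)).and
      ((DP.coprime (by fun_prop) (by fun_prop)).and
      ((DP.coprime (by fun_prop) (by fun_prop)).and ?_))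
    fun_prop
  · rintro ⟨z, a⟩ ⟨e, a1, e1, a2, e2, Y⟩ ⟨e', a1', e1', a2', e2', Y'⟩ h h'
    have d := h.det
    have d' := h'.det
    have c := h.2.2.2.1
    have c' := h'.2.2.2.1
    simp only at d d' c c'
    obtain ⟨-, rfl, rfl, rfl, rfl, rfl⟩ := d
    obtain ⟨-, rfl, rfl, rfl, rfl, rfl⟩ := d'
    rw [Nat.mul_self_inj.1 (show Y * Y = Y' * Y' by omega)]
  · intro z a
    refine ⟨fun ⟨w, h⟩ => h.det.1.symm, ?_⟩
    rintro rfl
    obtain ⟨Y, h⟩ := Rel.ex z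
    exact ⟨(_, _, _, _, _, Y), h⟩

theorem exists_W : ∃ (K : ℕ) (W : ℕ → ℕ), DF W ∧ (∀ z l, 2 ^ l ≤ z → 2 ^ l ^ 2 ≤ W z) ∧
    ∀ z l, z < 2 ^ l → W z ≤ 2 ^ (K * (l + 1) ^ 2) := by
  refine ⟨192 * 12 * 9, fun z => BB (NN z + 1) ^ 192, df_mid.powc _, fun z l h => ?_,
    fun z l h => ?_⟩
  · have h1 := (NN_spec z).2.trans_le (BB_ratio (NN z + 1))
    have h2 := Nat.lt_of_mul_lt_mul_right h1
    have h3 : 2 ^ l < 2 ^ (4 * (NN z + 2)) := by
      rw [pow_mul]; exact lt_of_le_of_lt (h.trans (Nat.le_add_right _ _)) h2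
    have h4 := (Nat.pow_lt_pow_iff_right (by norm_num)).1 h3
    calc 2 ^ l ^ 2 ≤ 2 ^ (4 * (NN z + 2)) ^ 2 := by gcongr; norm_num
      _ = (2 ^ (NN z + 1 + 1) ^ 2) ^ 16 := by rw [← pow_mul]; congr 1; ring
      _ ≤ (BB (NN z + 1) ^ 12) ^ 16 := Nat.pow_le_pow_left (BB_lower _) _
      _ = _ := by rw [← pow_mul]
  · have h0 : z + 5 ≤ 2 ^ (l + 3) := by
      have := Nat.one_le_two_pow (n := l)
      rw [pow_add]; omega
    have h1 := BB_bound (by omega) (NN_spec z).1 h0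
    have h2 := BB_upper (by omega) (NN_spec z).1
    calc BB (NN z + 1) ^ 192 ≤ ((2 ^ (l + 3)) ^ (12 * (l + 3))) ^ 192 := by
          gcongr; exact h2.trans (by gcongr; omega)
      _ ≤ _ := by
        rw [← pow_mul, ← pow_mul]
        apply Nat.pow_le_pow_right (by norm_num)
        nlinarith

end Vale.Agent.P345
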