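import Vale.Agent.P345.Count

/-! Bounded quantifiers, primitive recursion and recursively enumerable sets. -/

namespace Vale.Agent.P345

open Finset

variable {X : Type} [Ctx X]

lemma DP.normal {p : X → Prop} (hp : DP p) : ∃ (m : ℕ) (q : X × (Fin m → ℕ) → ℤ), IsP q ∧
    (∀ x, p x ↔ ∃ w, q (x, w) = 0) ∧ ∀ x w w', q (x, w) = 0 → q (x, w') = 0 → w = w' := by
  obtain ⟨W, _, q, hq, h1, h2⟩ := hp
  let e := Fintype.equivFin (Ctx.ι W)
  let φ : (Fin (Fintype.card (Ctx.ι W)) → ℕ) ≃ W :=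
    (Equiv.arrowCongr e.symm (Equiv.refl ℕ)).trans Ctx.co.symm
  have hφ : PM φ := fun j => by
    have := IsP.co (X := Fin (Fintype.card (Ctx.ι W)) → ℕ) (e j)
    convert this using 3
    simp [φ]
    rfl
  refine ⟨_, fun z => q (z.1, φ z.2), hq.comp (by fun_prop), fun x => ?_, fun x w w' h h' => ?_⟩
  · rw [h1]; exact φ.surjective.exists
  · exact φ.injective (h2 x _ _ h h')

lemma DP.ball {p : X → ℕ → Prop} (hp : DP (fun z : X × ℕ => p z.1 z.2)) {g : X → ℕ} (hg : DF g) :
    DP (fun x => ∀ k < g x, p x k) := by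
  classical
  obtain ⟨m, q, hq, h1, h2⟩ := (DP.and (DP.lt (f := fun z : X × ℕ => z.2) (g := fun z => g z.1)
    (by fun_prop) (by fun_prop)) hp).normal
  have a1 : PM (fun v : Fin (m + 1) → ℕ => v 0) := PM.co (X := Fin (m + 1) → ℕ) (0 : Fin (m + 1))
  have a2 : PM (fun (v : Fin (m + 1) → ℕ) (j : Fin m) => v j.succ) :=
    fun j => IsP.co (X := Fin (m + 1) → ℕ) (Fin.succ j)
  have hF : IsP (fun z : X × (Fin (m + 1) → ℕ) => q ((z.1, z.2 0), fun j => z.2 j.succ)) :=
    hq.comp (PM.mk (PM.mk (by fun_prop) (a1.comp (by fun_prop))) (a2.comp (by fun_prop)))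
  have hc := df_cnt hF
  set F := fun z : X × (Fin (m + 1) → ℕ) => q ((z.1, z.2 0), fun j => z.2 j.succ)
  have key : ∀ x t, cnt F x t = g x ↔
      ∀ k < g x, k ≤ t ∧ ∃ w, (∀ j, w j ≤ t) ∧ q ((x, k), w) = 0 := by
    intro x t
    have : cnt F x t = ((range (g x)).filter
        fun k => k ≤ t ∧ ∃ w, (∀ j, w j ≤ t) ∧ q ((x, k), w) = 0).card := by
      refine card_bij (fun v _ => (v 0 : ℕ)) ?_ ?_ ?_
      · intro v hv
        have hv := (mem_filter.1 hv).2
        exact mem_filter.2 ⟨mem_range.2 ((h1 (x, _)).2 ⟨_, hv⟩).1, (v 0).is_le, _,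
          fun j => (v _).is_le, hv⟩
      · intro v hv v' hv' h
        have hv := (mem_filter.1 hv).2
        have hv' := (mem_filter.1 hv').2
        simp only [F] at hv hv' h
        rw [← h] at hv'
        have := h2 _ _ _ hv hv'
        funext i
        refine Fin.cases (Fin.ext h) (fun j => Fin.ext (congrFun this j)) i
      · intro k hk
        obtain ⟨-, hk, w, hw, hw'⟩ := mem_filter.1 hk
        exact ⟨Fin.cons ⟨k, by omega⟩ fun j => ⟨w j, Nat.lt_succ_of_le (hw j)⟩,
          mem_filter.2 ⟨mem_univ _, hw'⟩, rfl⟩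
    rw [this]
    nth_rewrite 2 [← card_range (g x)]
    simp only [card_filter_eq_iff, mem_range]
  have mono : ∀ x t t', t ≤ t' → cnt F x t = g x → cnt F x t' = g x := by
    intro x t t' h
    rw [key, key]
    intro H k hk
    obtain ⟨h3, w, h4, h5⟩ := H k hk
    exact ⟨h3.trans h, w, fun j => (h4 j).trans h, h5⟩
  refine (DP.ex1 (p := fun x (t : ℕ) => cnt F x t = g x ∧ cnt F x (t - 1) ≠ g x + (1 - t))
    ((DP.eq hc (by fun_prop)).and (DP.ne (hc.comp (g := fun z : X × ℕ => (z.1, z.2 - 1))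
      (by fun_prop)) (by fun_prop))) ?_).congr fun x => ⟨?_, fun H => ?_⟩
  · intro x t t' h h'
    rcases lt_trichotomy t t' with l | l | l
    · have := mono x t (t' - 1) (by omega) h.1; omega
    · exact l
    · have := mono x t' (t - 1) (by omega) h'.1; omega
  · rintro ⟨t, h, -⟩ k hk
    obtain ⟨-, w, -, h⟩ := (key x t).1 h k hk
    exact ((h1 (x, k)).2 ⟨w, h⟩).2
  · have hex : ∃ t, cnt F x t = g x := by
      choose! w hw using fun k (hk : k < g x) => (h1 (x, k)).1 ⟨hk, H k hk⟩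
      refine ⟨g x + ∑ k ∈ range (g x), ∑ j, w k j, (key _ _).2 fun k hk =>
        ⟨by omega, w k, fun j => ?_, hw k hk⟩⟩
      have b1 : w k j ≤ ∑ j, w k j := single_le_sum (fun _ _ => Nat.zero_le _) (mem_univ j)
      have b2 : ∑ j, w k j ≤ ∑ k ∈ range (g x), ∑ j, w k j :=
        single_le_sum (f := fun k => ∑ j, w k j) (fun _ _ => Nat.zero_le _) (mem_range.2 hk)
      omega
    refine ⟨Nat.find hex, Nat.find_spec hex, ?_⟩
    have := Nat.find_spec hex
    rcases h : Nat.find hex with _ | t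
    · rw [h] at this; simp [this]
    · simpa using Nat.find_min hex (show t < _ by omega)

lemma digit_inj {B : ℕ} (n C D : ℕ) (hC : C < B ^ n) (hD : D < B ^ n)
    (h : ∀ k < n, C / B ^ k % B = D / B ^ k % B) : C = D := by
  induction n generalizing C D with
  | zero => rw [pow_zero] at hC hD; omega
  | succ n ih =>
    have h0 := h 0 (by omega)
    simp only [pow_zero, Nat.div_one] at h0
    have h1 := ih (C / B) (D / B) (Nat.div_lt_of_lt_mul (by rwa [pow_succ'] at hC))
      (Nat.div_lt_of_lt_mul (by rwa [pow_succ'] at hD)) fun k hk => by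
        simpa [Nat.div_div_eq_div_mul, pow_succ'] using h (k + 1) (by omega)
    rw [← Nat.mod_add_div C B, h0, h1, Nat.mod_add_div]

lemma DF.rec {F : X → ℕ → ℕ} {g : X × ℕ × ℕ → ℕ} (hf : DF (fun x => F x 0)) (hg : DF g)
    (hF : ∀ x n, F x (n + 1) = g (x, n, F x n)) : DF (fun z : X × ℕ => F z.1 z.2) := by
  let R : X → ℕ → ℕ → ℕ → ℕ → ℕ → Prop := fun x n v B C S =>
    (C < B ^ (n + 1) ∧ S < B ^ (n + 1) ∧ C / B ^ 0 % B = F x 0 ∧ S / B ^ 0 % B = F x 0 ∧
      B = S / B ^ n % B + 1 ∧ C / B ^ n % B = v) ∧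
    ∀ k < n, C / B ^ (k + 1) % B = g (x, k, C / B ^ k % B) ∧
      S / B ^ (k + 1) % B = S / B ^ k % B + C / B ^ (k + 1) % B
  have key : ∀ x n v B C S, R x n v B C S → ∀ k < n + 1, C / B ^ k % B = F x k ∧
      S / B ^ k % B = ∑ i ∈ range (k + 1), F x i := by
    intro x n v B C S h k hk
    induction k with
    | zero => exact ⟨h.1.2.2.1, by simpa using h.1.2.2.2.1⟩
    | succ k ih =>
      obtain ⟨h1, h2⟩ := ih (by omega)
      obtain ⟨h3, h4⟩ := h.2 k (by omega)
      rw [h1, ← hF] at h3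
      exact ⟨h3, by rw [h4, h2, h3, ← sum_range_succ]⟩
  refine DF.of_graph (p := fun z v => ∃ w : ℕ × ℕ × ℕ, R z.1 z.2 v w.1 w.2.1 w.2.2)
    (DP.ex1 (DP.and (by fun_prop) (DP.ball (by fun_prop) (by fun_prop))) ?_) ?_
  · rintro ⟨⟨x, n⟩, v⟩ ⟨B, C, S⟩ ⟨B', C', S'⟩ h h'
    have k1 := key _ _ _ _ _ _ h
    have k2 := key _ _ _ _ _ _ h'
    have b1 := h.1.2.2.2.2.1
    have b2 := h'.1.2.2.2.2.1
    simp only at h h' k1 k2 b1 b2
    rw [(k1 n (by omega)).2] at b1
    rw [(k2 n (by omega)).2, ← b1] at b2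
    subst b2
    rw [digit_inj _ _ _ h.1.1 h'.1.1 fun k hk => (k1 k hk).1.trans (k2 k hk).1.symm,
      digit_inj _ _ _ h.1.2.1 h'.1.2.1 fun k hk => (k1 k hk).2.trans (k2 k hk).2.symm]
  · rintro ⟨x, n⟩ v
    constructor
    · rintro ⟨w, h⟩
      exact (key _ _ _ _ _ _ h n (Nat.lt_succ_self _)).1.symm.trans h.1.2.2.2.2.2
    · rintro rfl
      have b1 : ∀ i < n + 1, ∑ j ∈ range (i + 1), F x j < ∑ j ∈ range (n + 1), F x j + 1 :=
        fun i hi => Nat.lt_succ_of_le (sum_le_sum_of_subset (range_subset_range.2 (by omega)))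
      have b2 : ∀ i < n + 1, F x i < ∑ j ∈ range (n + 1), F x j + 1 := fun i hi =>
        Nat.lt_succ_of_le (single_le_sum (fun _ _ => Nat.zero_le _) (mem_range.2 hi))
      obtain ⟨c1, c2⟩ := digit_sum _ _ b2
      obtain ⟨s1, s2⟩ := digit_sum _ _ b1
      have hB := s2 n (by omega)
      generalize ∑ i ∈ range (n + 1), F x i * _ ^ i = C at c1 c2
      generalize ∑ i ∈ range (n + 1), (∑ j ∈ range (i + 1), F x j) * _ ^ i = S at s1 s2 hB
      refine ⟨(_, C, S), ⟨c1, s1, c2 0 (by omega), (s2 0 (by omega)).trans (by simp),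
        congrArg (· + 1) hB.symm, c2 n (by omega)⟩, fun k (hk : k < n) => ?_⟩
      dsimp only
      rw [c2 k (by omega), c2 (k + 1) (by omega), s2 k (by omega), s2 (k + 1) (by omega), ← hF,
        ← sum_range_succ]
      exact ⟨rfl, rfl⟩

@[fun_prop] lemma DF.pair {f g : X → ℕ} (hf : DF f) (hg : DF g) :
    DF (fun x => Nat.pair (f x) (g x)) := by
  refine DF.congr (f := fun x => (1 - (1 - (g x - f x))) * (g x * g x + f x) +
    (1 - (g x - f x)) * (f x * f x + f x + g x)) (by fun_prop) fun x => ?_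
  unfold Nat.pair
  split_ifs with h
  · simp [show 1 - (g x - f x) = 0 by omega]
  · simp [show g x - f x = 0 by omega]

lemma df_unpair : DF Nat.unpair :=
  DF.of_graph (p := fun n y => Nat.pair y.1 y.2 = n) (by fun_prop) fun n y =>
    ⟨by rintro rfl; simp, by rintro rfl; simp⟩

theorem df_primrec {f : ℕ → ℕ} (hf : Nat.Primrec f) : DF f := by
  have hu := df_unpair
  induction hf with
  | zero => fun_prop
  | succ => exact DF.add DF.id (DF.const 1)
  | left => exact hu.fst
  | right => exact hu.snd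
  | pair _ _ h1 h2 => exact h1.pair h2
  | comp _ _ h1 h2 => exact h1.comp h2
  | @prec f g _ _ h1 h2 =>
    exact (DF.rec (F := fun z n => n.rec (f z) fun y IH => g (Nat.pair z (Nat.pair y IH)))
      (g := fun w : ℕ × ℕ × ℕ => g (Nat.pair w.1 (Nat.pair w.2.1 w.2.2))) h1
      (h2.comp (by fun_prop)) fun _ _ => rfl).comp hu

lemma df_ofFn (n : ℕ) (f : Fin n → X → ℕ) (hf : ∀ i, DF (f i)) :
    DF (fun x => Encodable.encode (List.ofFn fun i => f i x)) := by
  induction n with
  | zero => simpa using DF.const 0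
  | succ n ih =>
    simp only [List.ofFn_succ, Encodable.encode_list_cons, Encodable.encode_nat]
    exact ((hf 0).pair (ih (fun i => f i.succ) fun i => hf _)).add (DF.const 1)

def enc {n : ℕ} (a : Fin n → ℕ) : ℕ := @Encodable.encode _ Primcodable.toEncodable a

lemma df_encode (n : ℕ) : DF (fun a : Fin n → ℕ => enc a) := by
  refine (df_ofFn n (fun i a => a i) fun i => (PM.co (X := Fin n → ℕ) i).df).congr fun a => ?_
  rw [← List.Vector.toList_ofFn]
  rfl

open Nat.Partrec.Code in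
theorem dp_re {n : ℕ} {p : (Fin n → ℕ) → Prop} (hp : REPred p) : DP p := by
  obtain ⟨c, hc⟩ := exists_code.1 hp
  have h1 : ∀ a, p a ↔ ∃ k, evaln k c (enc a) ≠ none := by
    intro a
    simp only [Option.ne_none_iff_exists']
    rw [exists_comm]
    simp only [← Option.mem_def, ← evaln_complete, hc]
    simp [Part.mem_assert_iff, enc]
  have h2 : Primrec fun m : ℕ => Encodable.encode (evaln m.unpair.1 c m.unpair.2) :=
    Primrec.encode.comp (primrec_evaln.comp (((Primrec.fst.comp Primrec.unpair).pair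
      (Primrec.const c)).pair (Primrec.snd.comp Primrec.unpair)))
  have h3 := df_primrec (Primrec.nat_iff.1 h2)
  have h4 := df_encode n
  have h5 : ∀ {k : (Fin n → ℕ) × ℕ → ℕ}, DF k →
      DF fun z => Encodable.encode (evaln (k z) c (enc z.1)) := fun hk =>
    (h3.comp (hk.pair (h4.comp (g := fun z : (Fin n → ℕ) × ℕ => z.1) (by fun_prop)))).congr
      fun z => by simp
  have h6 : ∀ o : Option ℕ, Encodable.encode o = 0 ↔ o = none := by rintro (_ | _) <;> simp
  have mono : ∀ k k' m, k ≤ k' → evaln k' c m = none → evaln k c m = none := by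
    intro k k' m h h'
    by_contra hn
    obtain ⟨x, hx⟩ := Option.ne_none_iff_exists'.1 hn
    have := evaln_mono h hx
    simp [h'] at this
  refine (DP.ex1 (p := fun a (k : ℕ) =>
    Encodable.encode (evaln (k + 1) c (enc a)) ≠ 0 ∧
      Encodable.encode (evaln k c (enc a)) = 0)
    ((DP.ne (h5 (k := fun z => z.2 + 1) (by fun_prop)) (DF.const 0)).and
      (DP.eq (h5 (k := fun z => z.2) (by fun_prop)) (DF.const 0))) ?_).congr fun a => ?_
  · simp only [Ne, h6]
    intro a k k' h h'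
    rcases lt_trichotomy k k' with l | l | l
    · exact absurd (mono _ _ _ l h'.2) h.1
    · exact l
    · exact absurd (mono _ _ _ l h.2) h'.1
  · simp only [Ne, h6, h1]
    refine ⟨fun ⟨k, h, _⟩ => ⟨_, h⟩, fun ⟨k, h⟩ => ?_⟩
    induction k with
    | zero => simp [evaln] at h
    | succ k ih =>
      by_cases hk : evaln k c (enc a) = none
      · exact ⟨k, h, hk⟩
      · exact ih hk

end Vale.Agent.P345
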